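import Mathlib

/-!
# Pairwise commuting roots of a polynomial in a division ring are finite in number
-/

namespace Vale.Agent.Lib.P199

open Polynomial
open scoped IsMulCommutative

variable {F D : Type*} [Field F] [DivisionRing D] [Algebra F D]

/-- A set of pairwise commuting elements of a division ring `D`, all of which are roots of one
nonzero polynomial with central coefficients, is finite. -/
theorem finite_of_commuting_roots (p : F[X]) (hp : p ≠ 0) (R : Set D)
    (hcomm : ∀ a ∈ R, ∀ b ∈ R, a * b = b * a) (hroot : ∀ a ∈ R, aeval a p = 0) :
    R.Finite := by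
  have hmc : IsMulCommutative (Algebra.adjoin F R) := Algebra.isMulCommutative_adjoin F hcomm
  have hfin := Polynomial.rootSet_finite p (Algebra.adjoin F R)
  refine Set.Finite.subset (hfin.image (fun x : Algebra.adjoin F R => (x : D))) ?_
  intro a ha
  refine ⟨⟨a, Algebra.subset_adjoin ha⟩, ?_, rfl⟩
  rw [Polynomial.mem_rootSet_of_ne hp]
  apply Subtype.ext
  have h1 := hroot a ha
  have h2 := Polynomial.aeval_algHom_apply (Algebra.adjoin F R).val
    ⟨a, Algebra.subset_adjoin ha⟩ p
  simp only [Subalgebra.coe_val] at h2
  rw [← h2]
  simpa using h1
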