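import Vale.Agent.Lib.P199.Normalizing
import Vale.Agent.Lib.P199.CommRoots

/-!
# Kurosh's problem: finitely generated metabelian multiplicative subgroups

Let `D` be a division ring algebraic over a central subfield `F`, and let `T` be a finite set of
units of `D` generating a metabelian group (its commutator subgroup is commutative).  Then the
`F`-subalgebra generated by `T` is finite-dimensional.
-/

namespace Vale.Agent.Lib.P199

open Polynomial
open scoped commutatorElement

variable {F D : Type*} [Field F] [DivisionRing D] [Algebra F D]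

/-- Conjugation by a unit, as an algebra homomorphism. -/
def conjAlg (u : Dˣ) : D →ₐ[F] D where
  toFun x := (u : D) * x * ((u⁻¹ : Dˣ) : D)
  map_one' := by simp
  map_mul' x y := by simp [mul_assoc]
  map_zero' := by simp
  map_add' x y := by simp [mul_add, add_mul]
  commutes' r := by
    rw [← Algebra.commutes r (u : D), mul_assoc, Units.mul_inv, mul_one]

theorem conjAlg_apply (u : Dˣ) (x : D) :
    conjAlg (F := F) u x = (u : D) * x * ((u⁻¹ : Dˣ) : D) := rfl

/-- If conjugation by `u` maps a generating set into the generated subalgebra, it maps the whole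
subalgebra into itself. -/
theorem conj_mem_adjoin (u : Dˣ) (S : Set D)
    (h : ∀ z ∈ S, (u : D) * z * ((u⁻¹ : Dˣ) : D) ∈ Algebra.adjoin F S) :
    ∀ x ∈ Algebra.adjoin F S, (u : D) * x * ((u⁻¹ : Dˣ) : D) ∈ Algebra.adjoin F S := by
  intro x hx
  have hmap : (Algebra.adjoin F S).map (conjAlg (F := F) u) ≤ Algebra.adjoin F S := by
    rw [AlgHom.map_adjoin]
    apply Algebra.adjoin_le
    rintro _ ⟨z, hz, rfl⟩
    exact h z hz
  exact hmap ⟨x, hx, rfl⟩

theorem finiteDimensional_metabelian (halg : Algebra.IsAlgebraic F D) (T : Set Dˣ)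
    (hT : T.Finite)
    (hmet : ∀ x ∈ ⁅Subgroup.closure T, Subgroup.closure T⁆,
      ∀ y ∈ ⁅Subgroup.closure T, Subgroup.closure T⁆, x * y = y * x) :
    FiniteDimensional F (Algebra.adjoin F ((fun u : Dˣ => (u : D)) '' T)) := by
  set G := Subgroup.closure T with hG
  -- conjugates of the commutators of the generators
  set R : Set Dˣ := {z | ∃ x ∈ G, ∃ a ∈ T, ∃ b ∈ T, z = x * ⁅a, b⁆ * x⁻¹} with hR
  have hRN : ∀ z ∈ R, z ∈ ⁅G, G⁆ := by
    rintro z ⟨x, hx, a, ha, b, hb, rfl⟩
    rw [conjugate_commutatorElement]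
    exact Subgroup.commutator_mem_commutator
      (G.mul_mem (G.mul_mem hx (Subgroup.subset_closure ha)) (G.inv_mem hx))
      (G.mul_mem (G.mul_mem hx (Subgroup.subset_closure hb)) (G.inv_mem hx))
  set RD : Set D := (fun u : Dˣ => (u : D)) '' R with hRD
  have hRDcomm : ∀ a ∈ RD, ∀ b ∈ RD, a * b = b * a := by
    rintro _ ⟨x, hx, rfl⟩ _ ⟨y, hy, rfl⟩
    have := hmet x (hRN x hx) y (hRN y hy)
    simpa using congrArg Units.val this
  have hRDfin : RD.Finite := by
    have hsub : RD ⊆ ⋃ a ∈ T, ⋃ b ∈ T,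
        {d : D | d ∈ RD ∧ aeval d (minpoly F ((⁅a, b⁆ : Dˣ) : D)) = 0} := by
      rintro _ ⟨z, ⟨x, hx, a, ha, b, hb, rfl⟩, rfl⟩
      simp only [Set.mem_iUnion, Set.mem_ofPred_eq]
      refine ⟨a, ha, b, hb, ⟨_, ⟨x, hx, a, ha, b, hb, rfl⟩, rfl⟩, ?_⟩
      have h1 := Polynomial.aeval_algHom_apply (conjAlg (F := F) x) ((⁅a, b⁆ : Dˣ) : D)
        (minpoly F ((⁅a, b⁆ : Dˣ) : D))
      rw [minpoly.aeval, map_zero, conjAlg_apply] at h1
      simpa using h1
    refine Set.Finite.subset (hT.biUnion fun a _ => hT.biUnion fun b _ => ?_) hsub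
    exact finite_of_commuting_roots (minpoly F ((⁅a, b⁆ : Dˣ) : D))
      (minpoly.ne_zero (halg.isAlgebraic _).isIntegral) _
      (fun x hx y hy => hRDcomm x hx.1 y hy.1) (fun x hx => hx.2)
  -- conjugation by generators preserves `F[RD ∪ T']`
  have hnorm : ∀ T' : Set Dˣ, T' ⊆ T → ∀ g ∈ T,
      ∀ x ∈ Algebra.adjoin F (RD ∪ (fun u : Dˣ => (u : D)) '' T'),
        (g : D) * x * ((g⁻¹ : Dˣ) : D) ∈
          Algebra.adjoin F (RD ∪ (fun u : Dˣ => (u : D)) '' T') := by
    intro T' hT' g hg
    apply conj_mem_adjoin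
    rintro z (hz | hz)
    · obtain ⟨w, ⟨x, hx, a, ha, b, hb, rfl⟩, rfl⟩ := hz
      apply Algebra.subset_adjoin
      left
      refine ⟨g * (x * ⁅a, b⁆ * x⁻¹) * g⁻¹,
        ⟨g * x, G.mul_mem (Subgroup.subset_closure hg) hx, a, ha, b, hb, by group⟩, by simp⟩
    · obtain ⟨t, ht, rfl⟩ := hz
      have h1 : (g : D) * (t : D) * ((g⁻¹ : Dˣ) : D) = ((⁅g, t⁆ : Dˣ) : D) * (t : D) := by
        rw [commutatorElement_def]
        simp [mul_assoc]
      rw [h1]
      apply Subalgebra.mul_mem
      · apply Algebra.subset_adjoin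
        left
        exact ⟨⁅g, t⁆, ⟨1, G.one_mem, g, hg, t, hT' ht, by simp⟩, rfl⟩
      · exact Algebra.subset_adjoin (Or.inr ⟨t, ht, rfl⟩)
  -- finite-dimensionality by induction on the number of generators used
  have hfd : ∀ T' : Set Dˣ, T'.Finite → T' ⊆ T →
      FiniteDimensional F (Algebra.adjoin F (RD ∪ (fun u : Dˣ => (u : D)) '' T')) := by
    intro T' hT'
    induction T', hT' using Set.Finite.induction_on with
    | empty =>
      intro _
      rw [Set.image_empty, Set.union_empty]
      exact finiteDimensional_quasiCommuting halg RD hRDfin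
        (fun a ha b hb => ⟨1, by rw [one_smul]; exact hRDcomm a ha b hb⟩)
    | @insert b T'' hb hfin ih =>
      intro hsub
      have hT'' : T'' ⊆ T := fun t ht => hsub (Set.mem_insert_of_mem _ ht)
      have hbT : b ∈ T := hsub (Set.mem_insert _ _)
      have ih' := ih hT''
      have hstep := finiteDimensional_step halg
        (Algebra.adjoin F (RD ∪ (fun u : Dˣ => (u : D)) '' T'')) (b : D) ih'
        (fun x hx => by
          have := hnorm T'' hT'' b hbT x hx
          rwa [Units.val_inv_eq_inv_val] at this)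
      have hle : Algebra.adjoin F (RD ∪ (fun u : Dˣ => (u : D)) '' (insert b T'')) ≤
          Algebra.adjoin F (((Algebra.adjoin F (RD ∪ (fun u : Dˣ => (u : D)) '' T'') :
            Subalgebra F D) : Set D) ∪ {(b : D)}) := by
        apply Algebra.adjoin_mono
        rintro z (hz | ⟨t, (rfl | ht), rfl⟩)
        · exact Or.inl (Algebra.subset_adjoin (Or.inl hz))
        · exact Or.inr rfl
        · exact Or.inl (Algebra.subset_adjoin (Or.inr ⟨t, ht, rfl⟩))
      exact Submodule.finiteDimensional_of_le (Subalgebra.toSubmodule.monotone hle)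
  have hfinal := hfd T hT subset_rfl
  have hle : Algebra.adjoin F ((fun u : Dˣ => (u : D)) '' T) ≤
      Algebra.adjoin F (RD ∪ (fun u : Dˣ => (u : D)) '' T) :=
    Algebra.adjoin_mono Set.subset_union_right
  exact Submodule.finiteDimensional_of_le (Subalgebra.toSubmodule.monotone hle)

end Vale.Agent.Lib.P199
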