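import Vale.Agent.Lib.P199.Dedekind
import Vale.Agent.Lib.P199.Metabelian

/-!
# A power of a normalizing element centralizes a class-two subgroup

Let `D` be a division ring algebraic over a central subfield `F`, let `N` be a subgroup of the
unit group of `D` whose commutators are central in `N`, and let `h` be a unit normalizing `N`.
Then some positive power of `h` commutes with every element of `N`.
-/

namespace Vale.Agent.Lib.P199

open Polynomial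
open scoped commutatorElement

section Group

variable {G : Type*} [Group G]

/-- The center of a subgroup, as a subgroup of the ambient group. -/
def Zc (N : Subgroup G) : Subgroup G := Subgroup.centralizer (N : Set G) ⊓ N

theorem mem_Zc {N : Subgroup G} {z : G} :
    z ∈ Zc N ↔ (∀ n ∈ N, n * z = z * n) ∧ z ∈ N := by
  rw [Zc, Subgroup.mem_inf, Subgroup.mem_centralizer_iff]
  rfl

theorem conj_pow_mem (N : Subgroup G) (h : G) (hnorm : ∀ n ∈ N, h * n * h⁻¹ ∈ N) (i : ℕ) :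
    ∀ n ∈ N, h ^ i * n * (h ^ i)⁻¹ ∈ N := by
  induction i with
  | zero => intro n hn; simpa using hn
  | succ i ih =>
    intro n hn
    have h1 := hnorm _ (ih n hn)
    have e : h ^ (i + 1) * n * (h ^ (i + 1))⁻¹ = h * (h ^ i * n * (h ^ i)⁻¹) * h⁻¹ := by
      rw [pow_succ']; group
    rw [e]; exact h1

theorem conj_mem_Zc (N : Subgroup G) (h : G) (hnorm : ∀ n ∈ N, h * n * h⁻¹ ∈ N)
    (hnorm' : ∀ n ∈ N, h⁻¹ * n * h ∈ N) : ∀ z ∈ Zc N, h * z * h⁻¹ ∈ Zc N := by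
  intro z hz
  rw [mem_Zc] at hz ⊢
  refine ⟨fun n hn => ?_, hnorm z hz.2⟩
  have hcz := hz.1 _ (hnorm' n hn)
  calc n * (h * z * h⁻¹) = h * ((h⁻¹ * n * h) * z) * h⁻¹ := by group
    _ = h * (z * (h⁻¹ * n * h)) * h⁻¹ := by rw [hcz]
    _ = h * z * h⁻¹ * n := by group

theorem conj_pow_mem_Zc (N : Subgroup G) (h : G) (hnorm : ∀ n ∈ N, h * n * h⁻¹ ∈ N)
    (hnorm' : ∀ n ∈ N, h⁻¹ * n * h ∈ N) (i : ℕ) :
    ∀ z ∈ Zc N, h ^ i * z * (h ^ i)⁻¹ ∈ Zc N :=
  conj_pow_mem (Zc N) h (conj_mem_Zc N h hnorm hnorm') i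

theorem conj_inv_pow_mem_Zc (N : Subgroup G) (h : G) (hnorm : ∀ n ∈ N, h * n * h⁻¹ ∈ N)
    (hnorm' : ∀ n ∈ N, h⁻¹ * n * h ∈ N) (i : ℕ) :
    ∀ z ∈ Zc N, (h ^ i)⁻¹ * z * h ^ i ∈ Zc N := by
  intro z hz
  have h1 := conj_pow_mem (Zc N) h⁻¹
    (conj_mem_Zc N h⁻¹ (by simpa using hnorm') (by simpa using hnorm)) i z hz
  simpa using h1

/-- If `h ^ d` moves `n` inside its coset of the center, so does every power of `h ^ d`. -/
theorem conj_pow_mul_coset (N : Subgroup G) (h : G) (hnorm : ∀ n ∈ N, h * n * h⁻¹ ∈ N)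
    (hnorm' : ∀ n ∈ N, h⁻¹ * n * h ∈ N) (n : G) (d : ℕ) (z : G) (hz : z ∈ Zc N)
    (hconj : h ^ d * n * (h ^ d)⁻¹ = n * z) (t : ℕ) :
    ∃ z' ∈ Zc N, h ^ (d * t) * n * (h ^ (d * t))⁻¹ = n * z' := by
  induction t with
  | zero => exact ⟨1, (Zc N).one_mem, by simp⟩
  | succ t ih =>
    obtain ⟨z', hz', he⟩ := ih
    refine ⟨z' * (h ^ (d * t) * z * (h ^ (d * t))⁻¹),
      (Zc N).mul_mem hz' (conj_pow_mem_Zc N h hnorm hnorm' _ z hz), ?_⟩
    calc h ^ (d * (t + 1)) * n * (h ^ (d * (t + 1)))⁻¹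
        = h ^ (d * t) * (h ^ d * n * (h ^ d)⁻¹) * (h ^ (d * t))⁻¹ := by
          rw [Nat.mul_succ, pow_add]; group
      _ = (h ^ (d * t) * n * (h ^ (d * t))⁻¹) * (h ^ (d * t) * z * (h ^ (d * t))⁻¹) := by
          rw [hconj]; group
      _ = n * (z' * (h ^ (d * t) * z * (h ^ (d * t))⁻¹)) := by rw [he, mul_assoc]

end Group

variable {F D : Type*} [Field F] [DivisionRing D] [Algebra F D]

/-- Some positive power of `h` commutes with the center of `N`. -/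
theorem exists_pow_comm_center (N : Subgroup Dˣ) (h : Dˣ)
    (hnorm : ∀ n ∈ N, h * n * h⁻¹ ∈ N) (hnorm' : ∀ n ∈ N, h⁻¹ * n * h ∈ N)
    (s : Finset ℕ) (g : ℕ → F) (hne : ∃ i ∈ s, g i ≠ 0)
    (hrel : ∀ y : D, ∑ i ∈ s, g i • (((h ^ i : Dˣ) : D) * y * (((h ^ i)⁻¹ : Dˣ) : D)) = 0) :
    ∃ k : ℕ, 0 < k ∧ ∀ z ∈ Zc N, h ^ k * z = z * h ^ k := by
  let χ : ℕ → (Zc N) → D := fun i z => ((h ^ i * (z : Dˣ) * (h ^ i)⁻¹ : Dˣ) : D)
  have hone : ∀ i, χ i 1 = 1 := by intro i; simp [χ]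
  have hmul : ∀ i b b', χ i (b * b') = χ i b * χ i b' := by
    intro i b b'
    simp only [χ]
    rw [← Units.val_mul]
    congr 1
    push_cast
    group
  have hcomm : ∀ i j b b', χ i b * χ j b' = χ j b' * χ i b := by
    intro i j b b'
    simp only [χ]
    rw [← Units.val_mul, ← Units.val_mul]
    congr 1
    have h1 := conj_pow_mem_Zc N h hnorm hnorm' i b b.2
    have h2 := conj_pow_mem_Zc N h hnorm hnorm' j b' b'.2
    exact ((mem_Zc.mp h1).1 _ (mem_Zc.mp h2).2).symm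
  have hrel' : ∀ b : Zc N, ∑ i ∈ s, χ i b * algebraMap F D (g i) = 0 := by
    intro b
    rw [← hrel ((b : Dˣ) : D)]
    apply Finset.sum_congr rfl
    intro i _
    simp only [χ]
    rw [← Algebra.commutes, ← Algebra.smul_def]
    simp [Units.val_mul]
  -- two of the maps coincide
  have hex : ∃ i j, i < j ∧ χ i = χ j := by
    by_contra hcon
    have hinj : ∀ i ∈ s, ∀ j ∈ s, χ i = χ j → i = j := by
      intro i _ j _ hij
      by_contra hne'
      rcases lt_or_gt_of_ne hne' with hlt | hlt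
      · exact hcon ⟨i, j, hlt, hij⟩
      · exact hcon ⟨j, i, hlt, hij.symm⟩
    have := dedekind_commuting χ hone hmul hcomm s hinj (fun i => algebraMap F D (g i)) hrel'
    obtain ⟨i, hi, hgi⟩ := hne
    exact hgi ((map_eq_zero (algebraMap F D)).mp (this i hi))
  obtain ⟨i, j, hij, hχ⟩ := hex
  refine ⟨j - i, Nat.sub_pos_of_lt hij, fun z hz => ?_⟩
  have e : h ^ i * z * (h ^ i)⁻¹ = h ^ j * z * (h ^ j)⁻¹ :=
    Units.ext (congrFun hχ ⟨z, hz⟩)
  have hj : j = i + (j - i) := by omega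
  set k := j - i with hk
  rw [hj, pow_add] at e
  have e2 : z = h ^ k * z * (h ^ k)⁻¹ := by
    calc z = (h ^ i)⁻¹ * (h ^ i * z * (h ^ i)⁻¹) * h ^ i := by group
      _ = (h ^ i)⁻¹ * (h ^ i * h ^ k * z * (h ^ i * h ^ k)⁻¹) * h ^ i := by rw [e]
      _ = h ^ k * z * (h ^ k)⁻¹ := by group
  calc h ^ k * z = (h ^ k * z * (h ^ k)⁻¹) * h ^ k := by group
    _ = z * h ^ k := by rw [← e2]

/-- Some positive power of `h` acts trivially on `N` modulo its center. -/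
theorem exists_pow_conj_coset (N : Subgroup Dˣ) (h : Dˣ)
    (hnorm : ∀ n ∈ N, h * n * h⁻¹ ∈ N) (hnorm' : ∀ n ∈ N, h⁻¹ * n * h ∈ N)
    (hclass : ∀ a ∈ N, ∀ b ∈ N, ∀ n ∈ N, ⁅a, b⁆ * n = n * ⁅a, b⁆)
    (s : Finset ℕ) (g : ℕ → F) (hne : ∃ i ∈ s, g i ≠ 0)
    (hrel : ∀ y : D, ∑ i ∈ s, g i • (((h ^ i : Dˣ) : D) * y * (((h ^ i)⁻¹ : Dˣ) : D)) = 0) :
    ∃ K : ℕ, 0 < K ∧ ∀ n ∈ N, ∃ z ∈ Zc N, h ^ K * n * (h ^ K)⁻¹ = n * z := by
  have hcommem : ∀ a ∈ N, ∀ b ∈ N, ⁅a, b⁆ ∈ N := by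
    intro a ha b hb
    rw [commutatorElement_def]
    exact N.mul_mem (N.mul_mem (N.mul_mem ha hb) (N.inv_mem ha)) (N.inv_mem hb)
  set M := s.sup id with hM
  refine ⟨M.factorial, Nat.factorial_pos M, fun n hn => ?_⟩
  -- a small power moves `n` inside its coset
  have hsmall : ∃ d, 0 < d ∧ d ≤ M ∧ ∃ z ∈ Zc N, h ^ d * n * (h ^ d)⁻¹ = n * z := by
    let a : ℕ → Dˣ := fun i => h ^ i * n * (h ^ i)⁻¹
    have haN : ∀ i, a i ∈ N := fun i => conj_pow_mem N h hnorm i n hn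
    let χ : ℕ → N → D := fun i b => ((⁅(b : Dˣ), a i⁆ : Dˣ) : D)
    have hone : ∀ i, χ i 1 = 1 := by intro i; simp [χ]
    have hmul : ∀ i b b', χ i (b * b') = χ i b * χ i b' := by
      intro i b b'
      simp only [χ]
      rw [← Units.val_mul]
      congr 1
      push_cast
      have hc := hclass _ b'.2 _ (haN i) _ b.2
      have hc2 := hclass _ b.2 _ (haN i) _ (hcommem _ b'.2 _ (haN i))
      calc ⁅(b : Dˣ) * (b' : Dˣ), a i⁆
          = (b : Dˣ) * ⁅(b' : Dˣ), a i⁆ * a i * (b : Dˣ)⁻¹ * (a i)⁻¹ := by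
            simp only [commutatorElement_def]; group
        _ = ⁅(b' : Dˣ), a i⁆ * (b : Dˣ) * a i * (b : Dˣ)⁻¹ * (a i)⁻¹ := by rw [hc]
        _ = ⁅(b' : Dˣ), a i⁆ * ⁅(b : Dˣ), a i⁆ := by
            simp only [commutatorElement_def]; group
        _ = ⁅(b : Dˣ), a i⁆ * ⁅(b' : Dˣ), a i⁆ := by rw [hc2]
    have hcomm : ∀ i j b b', χ i b * χ j b' = χ j b' * χ i b := by
      intro i j b b'
      simp only [χ]
      rw [← Units.val_mul, ← Units.val_mul]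
      congr 1
      exact hclass _ b.2 _ (haN i) _ (hcommem _ b'.2 _ (haN j))
    have hrel' : ∀ b : N, ∑ i ∈ s, χ i b * (g i • ((a i : Dˣ) : D)) = 0 := by
      intro b
      have h0 : ∑ i ∈ s, χ i b * (g i • ((a i : Dˣ) : D)) =
          ((b : Dˣ) : D) * (∑ i ∈ s, g i • (((h ^ i : Dˣ) : D) * (n : D) *
            (((h ^ i)⁻¹ : Dˣ) : D))) * (((b : Dˣ)⁻¹ : Dˣ) : D) := by
        rw [Finset.mul_sum, Finset.sum_mul]
        apply Finset.sum_congr rfl
        intro i _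
        simp only [χ]
        rw [mul_smul_comm, mul_smul_comm, smul_mul_assoc]
        congr 1
        have e : ⁅(b : Dˣ), a i⁆ * a i = (b : Dˣ) * (h ^ i * n * (h ^ i)⁻¹) * (b : Dˣ)⁻¹ := by
          simp only [a, commutatorElement_def]; group
        have e' := congrArg Units.val e
        simpa [Units.val_mul, mul_assoc] using e'
      rw [h0, hrel, mul_zero, zero_mul]
    have main : ∀ i j, j ∈ s → i < j → χ i = χ j →
        ∃ d, 0 < d ∧ d ≤ M ∧ ∃ z ∈ Zc N, h ^ d * n * (h ^ d)⁻¹ = n * z := by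
      intro i j hjs hij hχ
      have hχ' : ∀ b ∈ N, ⁅b, a i⁆ = ⁅b, a j⁆ := fun b hb =>
        Units.ext (congrFun hχ ⟨b, hb⟩)
      have hz0 : (a i)⁻¹ * a j ∈ Zc N := by
        rw [mem_Zc]
        refine ⟨fun n' hn' => ?_, N.mul_mem (N.inv_mem (haN i)) (haN j)⟩
        have e := hχ' n'⁻¹ (N.inv_mem hn')
        have e2 : a i * n' * (a i)⁻¹ = a j * n' * (a j)⁻¹ := by
          calc a i * n' * (a i)⁻¹ = n' * ⁅n'⁻¹, a i⁆ := by
                simp only [commutatorElement_def]; group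
            _ = n' * ⁅n'⁻¹, a j⁆ := by rw [e]
            _ = a j * n' * (a j)⁻¹ := by simp only [commutatorElement_def]; group
        calc n' * ((a i)⁻¹ * a j) = (a i)⁻¹ * (a i * n' * (a i)⁻¹) * a j := by group
          _ = (a i)⁻¹ * (a j * n' * (a j)⁻¹) * a j := by rw [e2]
          _ = (a i)⁻¹ * a j * n' := by group
      refine ⟨j - i, Nat.sub_pos_of_lt hij,
        le_trans (Nat.sub_le j i) (Finset.le_sup (f := id) hjs),
        (h ^ i)⁻¹ * ((a i)⁻¹ * a j) * h ^ i,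
        conj_inv_pow_mem_Zc N h hnorm hnorm' i _ hz0, ?_⟩
      have hj : j = i + (j - i) := by omega
      set k := j - i with hk
      simp only [a]
      rw [hj, pow_add]
      group
    by_contra hcon
    have hinj : ∀ i ∈ s, ∀ j ∈ s, χ i = χ j → i = j := by
      intro i hi j hj hij
      by_contra hne'
      rcases lt_or_gt_of_ne hne' with hlt | hlt
      · exact hcon (main i j hj hlt hij)
      · exact hcon (main j i hi hlt hij.symm)
    have := dedekind_commuting χ hone hmul hcomm s hinj (fun i => g i • ((a i : Dˣ) : D)) hrel'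
    obtain ⟨i, hi, hgi⟩ := hne
    rcases smul_eq_zero.mp (this i hi) with h0 | h0
    · exact hgi h0
    · exact (a i).ne_zero h0
  obtain ⟨d, hd, hdM, z, hz, hconj⟩ := hsmall
  obtain ⟨t, ht⟩ := Nat.dvd_factorial hd hdM
  rw [ht]
  exact conj_pow_mul_coset N h hnorm hnorm' n d z hz hconj t

/-- **Main lemma.**  In a division ring algebraic over a central subfield, a unit `h` that
normalizes a subgroup `N` of class at most two has a positive power centralizing `N`. -/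
theorem exists_pow_centralizes (halg : Algebra.IsAlgebraic F D) (N : Subgroup Dˣ) (h : Dˣ)
    (hnorm : ∀ n ∈ N, h * n * h⁻¹ ∈ N) (hnorm' : ∀ n ∈ N, h⁻¹ * n * h ∈ N)
    (hclass : ∀ a ∈ N, ∀ b ∈ N, ∀ n ∈ N, ⁅a, b⁆ * n = n * ⁅a, b⁆) :
    ∃ k : ℕ, 0 < k ∧ ∀ n ∈ N, h ^ k * n = n * h ^ k := by
  obtain ⟨s, g, hne, hrel⟩ := universal_relation halg h
  obtain ⟨k₁, hk₁, hZ⟩ := exists_pow_comm_center N h hnorm hnorm' s g hne hrel
  obtain ⟨K, hK, hcos⟩ := exists_pow_conj_coset N h hnorm hnorm' hclass s g hne hrel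
  set h₁ := h ^ (K * k₁) with hh₁
  -- `h₁` commutes with the center
  have hZ₁ : ∀ z ∈ Zc N, Commute h₁ z := by
    intro z hz
    rw [hh₁, pow_mul']
    exact (show Commute (h ^ k₁) z from hZ z hz).pow_left K
  -- `h₁` acts trivially modulo the center
  have hcos₁ : ∀ n ∈ N, ∃ z ∈ Zc N, h₁ * n * h₁⁻¹ = n * z := by
    intro n hn
    obtain ⟨z, hz, hconj⟩ := hcos n hn
    exact conj_pow_mul_coset N h hnorm hnorm' n K z hz hconj k₁
  let ζ : Dˣ → Dˣ := fun n => n⁻¹ * h₁ * n * h₁⁻¹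
  have hζ : ∀ n ∈ N, ζ n ∈ Zc N ∧ h₁ * n * h₁⁻¹ = n * ζ n := by
    intro n hn
    obtain ⟨z, hz, hconj⟩ := hcos₁ n hn
    have : ζ n = z := by
      simp only [ζ]
      calc n⁻¹ * h₁ * n * h₁⁻¹ = n⁻¹ * (h₁ * n * h₁⁻¹) := by group
        _ = n⁻¹ * (n * z) := by rw [hconj]
        _ = z := by group
    rw [this]; exact ⟨hz, hconj⟩
  set S₁ : Set Dˣ := ζ '' (N : Set Dˣ) with hS₁
  have hS₁Z : ∀ z ∈ S₁, z ∈ Zc N := by
    rintro _ ⟨n, hn, rfl⟩; exact (hζ n hn).1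
  -- finiteness of `S₁`
  set p := minpoly F (h₁ : D) with hp
  have hp0 : p ≠ 0 := minpoly.ne_zero (halg.isAlgebraic _).isIntegral
  have hpe : aeval (h₁ : D) p = 0 := minpoly.aeval F _
  set R : Set D := (fun z : Dˣ => ((z * h₁ : Dˣ) : D)) '' S₁ with hR
  have hRfin : R.Finite := by
    apply finite_of_commuting_roots p hp0 R
    · rintro _ ⟨z, hz, rfl⟩ _ ⟨z', hz', rfl⟩
      have c1 : Commute h₁ z := hZ₁ z (hS₁Z z hz)
      have c2 : Commute h₁ z' := hZ₁ z' (hS₁Z z' hz')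
      have c3 : Commute z z' := (mem_Zc.mp (hS₁Z z' hz')).1 z (mem_Zc.mp (hS₁Z z hz)).2
      have c4 : Commute (z * h₁) (z' * h₁) :=
        (c3.mul_right c1.symm).mul_left (c2.mul_right (Commute.refl h₁))
      have e := c4.eq
      show ((z * h₁ : Dˣ) : D) * ((z' * h₁ : Dˣ) : D) = ((z' * h₁ : Dˣ) : D) * ((z * h₁ : Dˣ) : D)
      rw [← Units.val_mul, ← Units.val_mul, e]
    · rintro _ ⟨_, ⟨n, hn, rfl⟩, rfl⟩
      show aeval ((ζ n * h₁ : Dˣ) : D) p = 0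
      have e : ζ n * h₁ = n⁻¹ * h₁ * n := by simp only [ζ]; group
      rw [e]
      have h1 := Polynomial.aeval_algHom_apply (conjAlg (F := F) n⁻¹) (h₁ : D) p
      rw [hpe, map_zero, conjAlg_apply] at h1
      simpa [Units.val_mul] using h1
  have hS₁fin : S₁.Finite := by
    apply Set.Finite.of_finite_image hRfin
    intro z _ z' _ hzz'
    have e : z * h₁ = z' * h₁ := Units.ext hzz'
    exact mul_right_cancel e
  -- every element of `S₁` has finite order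
  have hord : ∀ z ∈ S₁, IsOfFinOrder z := by
    rintro _ ⟨n, hn, rfl⟩
    rw [← finite_powers]
    apply hS₁fin.subset
    rintro _ ⟨j, rfl⟩
    show ζ n ^ j ∈ S₁
    refine ⟨n ^ j, N.pow_mem hn j, ?_⟩
    obtain ⟨hz, hconj⟩ := hζ n hn
    have c : Commute n (ζ n) := (mem_Zc.mp hz).1 n hn
    have e1 : h₁ * n ^ j * h₁⁻¹ = n ^ j * ζ n ^ j := by
      rw [← conj_pow, hconj, c.mul_pow]
    calc ζ (n ^ j) = (n ^ j)⁻¹ * (h₁ * n ^ j * h₁⁻¹) := by simp only [ζ]; group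
      _ = (n ^ j)⁻¹ * (n ^ j * ζ n ^ j) := by rw [e1]
      _ = ζ n ^ j := by group
  set E := ∏ z ∈ hS₁fin.toFinset, orderOf z with hE
  have hEpos : 0 < E :=
    Finset.prod_pos (fun z hz => (hord z (hS₁fin.mem_toFinset.mp hz)).orderOf_pos)
  have hEpow : ∀ z ∈ S₁, z ^ E = 1 := by
    intro z hz
    exact orderOf_dvd_iff_pow_eq_one.mp
      (Finset.dvd_prod_of_mem _ (hS₁fin.mem_toFinset.mpr hz))
  refine ⟨K * k₁ * E, Nat.mul_pos (Nat.mul_pos hK hk₁) hEpos, fun n hn => ?_⟩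
  rw [pow_mul, ← hh₁]
  obtain ⟨hz, hconj⟩ := hζ n hn
  have c : Commute h₁ (ζ n) := hZ₁ _ hz
  have key : ∀ t : ℕ, h₁ ^ t * n * (h₁ ^ t)⁻¹ = n * ζ n ^ t := by
    intro t
    induction t with
    | zero => simp
    | succ t ih =>
      have c' : h₁ * ζ n ^ t * h₁⁻¹ = ζ n ^ t := by
        have e := (c.pow_right t).eq
        rw [e]; group
      calc h₁ ^ (t + 1) * n * (h₁ ^ (t + 1))⁻¹
          = h₁ * (h₁ ^ t * n * (h₁ ^ t)⁻¹) * h₁⁻¹ := by rw [pow_succ']; group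
        _ = (h₁ * n * h₁⁻¹) * (h₁ * ζ n ^ t * h₁⁻¹) := by rw [ih]; group
        _ = n * ζ n ^ (t + 1) := by rw [hconj, c', pow_succ', mul_assoc]
  have hfin := key E
  rw [hEpow _ ⟨n, hn, rfl⟩, mul_one] at hfin
  calc h₁ ^ E * n = (h₁ ^ E * n * (h₁ ^ E)⁻¹) * h₁ ^ E := by group
    _ = n * h₁ ^ E := by rw [hfin]

end Vale.Agent.Lib.P199
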