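import Vale.Agent.Lib.P199.Normalizing

/-!
# Two linear-algebra tools for Kurosh's problem

* `dedekind_commuting`: Dedekind-type independence of pairwise distinct multiplicative maps with
  pairwise commuting values in a ring without zero divisors (coefficients on the right are
  arbitrary).
* `universal_relation`: if `h` is a unit of a division ring algebraic over a central subfield
  `F`, there is a nontrivial `F`-linear relation among the conjugations `y ↦ h ^ i * y * h ^ (-i)`
  that holds for all `y` at once.
-/

namespace Vale.Agent.Lib.P199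

open scoped TensorProduct

/-- Dedekind-type independence for multiplicative maps with pairwise commuting values. -/
theorem dedekind_commuting {D : Type*} [Ring D] [NoZeroDivisors D] {Γ : Type*} [Monoid Γ]
    {ι : Type*} [DecidableEq ι] (χ : ι → Γ → D)
    (hone : ∀ i, χ i 1 = 1)
    (hmul : ∀ i b b', χ i (b * b') = χ i b * χ i b')
    (hcomm : ∀ i j b b', χ i b * χ j b' = χ j b' * χ i b)
    (s : Finset ι) (hinj : ∀ i ∈ s, ∀ j ∈ s, χ i = χ j → i = j) :
    ∀ e : ι → D, (∀ b, ∑ i ∈ s, χ i b * e i = 0) → ∀ i ∈ s, e i = 0 := by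
  induction s using Finset.induction_on with
  | empty => intro e _ i hi; simp at hi
  | insert a t hat ih =>
    intro e he
    have hinj' : ∀ i ∈ t, ∀ j ∈ t, χ i = χ j → i = j := fun i hi j hj =>
      hinj i (Finset.mem_insert_of_mem hi) j (Finset.mem_insert_of_mem hj)
    have he' : ∀ b, χ a b * e a + ∑ i ∈ t, χ i b * e i = 0 := by
      intro b
      have := he b
      rwa [Finset.sum_insert hat] at this
    -- the coefficients on `t` vanish
    have ht : ∀ i ∈ t, e i = 0 := by
      intro i hi
      have hne : χ i ≠ χ a := by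
        intro h
        have := hinj i (Finset.mem_insert_of_mem hi) a (Finset.mem_insert_self a t) h
        exact hat (this ▸ hi)
      obtain ⟨w, hw⟩ : ∃ w, χ i w ≠ χ a w := by
        by_contra hcon
        push Not at hcon
        exact hne (funext hcon)
      have key : ∀ b, ∑ j ∈ t, χ j b * ((χ j w - χ a w) * e j) = 0 := by
        intro b
        have h1 : ∑ j ∈ t, χ j b * ((χ j w - χ a w) * e j) =
            ∑ j ∈ t, χ j (w * b) * e j - χ a w * ∑ j ∈ t, χ j b * e j := by
          rw [Finset.mul_sum, ← Finset.sum_sub_distrib]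
          apply Finset.sum_congr rfl
          intro j _
          rw [hmul j w b, ← mul_assoc, mul_sub, hcomm j j b w, hcomm j a b w, sub_mul,
            ← mul_assoc]
        have h2 : ∑ j ∈ t, χ j (w * b) * e j = -(χ a (w * b) * e a) :=
          eq_neg_of_add_eq_zero_right (he' (w * b))
        have h3 : ∑ j ∈ t, χ j b * e j = -(χ a b * e a) :=
          eq_neg_of_add_eq_zero_right (he' b)
        rw [h1, h2, h3, hmul a w b]
        noncomm_ring
      have := ih hinj' (fun j => (χ j w - χ a w) * e j) key i hi
      rcases mul_eq_zero.mp this with h | h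
      · exact absurd (sub_eq_zero.mp h) hw
      · exact h
    intro i hi
    rcases Finset.mem_insert.mp hi with rfl | hi
    · have := he' 1
      rw [hone, one_mul, Finset.sum_eq_zero (fun j hj => by rw [ht j hj, mul_zero]),
        add_zero] at this
      exact this
    · exact ht i hi

variable {F D : Type*} [Field F] [DivisionRing D] [Algebra F D]

/-- A nontrivial relation among the conjugations by powers of an algebraic unit, valid for all
arguments simultaneously. -/
theorem universal_relation (halg : Algebra.IsAlgebraic F D) (h : Dˣ) :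
    ∃ (s : Finset ℕ) (g : ℕ → F), (∃ i ∈ s, g i ≠ 0) ∧
      ∀ y : D, ∑ i ∈ s, g i • (((h ^ i : Dˣ) : D) * y * (((h ^ i)⁻¹ : Dˣ) : D)) = 0 := by
  set S : Set D := {(h : D), ((h⁻¹ : Dˣ) : D)} with hS
  set W : Subalgebra F D := Algebra.adjoin F S with hW
  have hfd : FiniteDimensional F W := by
    apply finiteDimensional_quasiCommuting halg S (by simp [hS])
    intro a ha b hb
    refine ⟨1, ?_⟩
    rw [one_smul]
    simp only [hS, Set.mem_insert_iff, Set.mem_singleton_iff] at ha hb
    rcases ha with rfl | rfl <;> rcases hb with rfl | rfl <;> simp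
  have hmem : ∀ i : ℕ, ((h ^ i : Dˣ) : D) ∈ W := by
    intro i
    rw [Units.val_pow_eq_pow_val]
    exact Subalgebra.pow_mem _ (Algebra.subset_adjoin (by simp [hS])) i
  have hmem' : ∀ i : ℕ, (((h ^ i)⁻¹ : Dˣ) : D) ∈ W := by
    intro i
    rw [← inv_pow, Units.val_pow_eq_pow_val]
    exact Subalgebra.pow_mem _ (Algebra.subset_adjoin (by simp [hS])) i
  -- the bilinear map `(u, v) ↦ (y ↦ u * y * v)`
  let Θ : W →ₗ[F] W →ₗ[F] (D →ₗ[F] D) :=
    LinearMap.mk₂ F (fun u v => (LinearMap.mulLeft F (u : D)) ∘ₗ (LinearMap.mulRight F (v : D)))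
      (by intro u₁ u₂ v; ext y; simp [add_mul])
      (by intro c u v; ext y; simp)
      (by intro u v₁ v₂; ext y; simp [mul_add])
      (by intro c u v; ext y; simp)
  let v : ℕ → W ⊗[F] W := fun i => (⟨_, hmem i⟩ : W) ⊗ₜ[F] (⟨_, hmem' i⟩ : W)
  have hnot : ¬ LinearIndependent F v := by
    intro hli
    have := hli.finite
    exact not_finite ℕ
  obtain ⟨s, g, hsum, hne⟩ := not_linearIndependent_iff.mp hnot
  refine ⟨s, g, hne, fun y => ?_⟩
  have h1 := congrArg (fun t => (TensorProduct.lift Θ t) y) hsum
  simp only [map_sum, map_smul, LinearMap.coe_sum, Finset.sum_apply, LinearMap.smul_apply,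
    map_zero, LinearMap.zero_apply] at h1
  rw [← h1]
  apply Finset.sum_congr rfl
  intro i _
  simp [v, Θ, mul_assoc]

end Vale.Agent.Lib.P199
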