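import Vale.Agent.Lib.P199.Solvable

/-!
# Normalizing units act by inner automorphisms up to a power

Let `D` be a division ring algebraic over a central subfield `F` and `A` a finite-dimensional
`F`-subalgebra.  If a unit `h` of `D` normalizes `A`, then for some `k ≥ 1` the conjugation by
`h ^ k` agrees on `A` with the conjugation by a nonzero element of `A`.  This replaces the
Skolem-Noether theorem in the present setting; the proof uses a Dedekind-type lemma for
multiplicative maps of `A`.
-/

namespace Vale.Agent.Lib.P199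

variable {F D : Type*} [Field F] [DivisionRing D] [Algebra F D]

theorem conjAlg_mul (u v : Dˣ) (x : D) :
    conjAlg (F := F) (u * v) x = conjAlg (F := F) u (conjAlg (F := F) v x) := by
  simp [conjAlg_apply, mul_assoc]

theorem conjAlg_one (x : D) : conjAlg (F := F) (1 : Dˣ) x = x := by
  simp [conjAlg_apply]

theorem conjAlg_inv_conjAlg (u : Dˣ) (x : D) :
    conjAlg (F := F) u⁻¹ (conjAlg (F := F) u x) = x := by
  rw [← conjAlg_mul, inv_mul_cancel, conjAlg_one]

theorem conjAlg_conjAlg_inv (u : Dˣ) (x : D) :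
    conjAlg (F := F) u (conjAlg (F := F) u⁻¹ x) = x := by
  rw [← conjAlg_mul, mul_inv_cancel, conjAlg_one]

/-- A finite-dimensional subalgebra of a division ring is closed under inverses. -/
theorem inv_mem_of_finiteDimensional (A : Subalgebra F D) [FiniteDimensional F A] {a : D}
    (ha : a ∈ A) : a⁻¹ ∈ A := by
  by_cases h0 : a = 0
  · rw [h0, inv_zero]; exact A.zero_mem
  let f : A →ₗ[F] A :=
    { toFun := fun x => ⟨a * x, A.mul_mem ha x.2⟩
      map_add' := fun x y => Subtype.ext (by simp [mul_add])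
      map_smul' := fun c x => Subtype.ext (by simp) }
  have hinj : Function.Injective f := by
    intro x y hxy
    have h1 : a * (x : D) = a * (y : D) := congrArg Subtype.val hxy
    exact Subtype.ext (mul_left_cancel₀ h0 h1)
  obtain ⟨b, hb⟩ := (LinearMap.injective_iff_surjective.mp hinj) 1
  have h1 : a * (b : D) = 1 := congrArg Subtype.val hb
  have h2 : a⁻¹ = (b : D) := by
    rw [← mul_one a⁻¹, ← h1, inv_mul_cancel_left₀ h0]
  rw [h2]
  exact b.2

/-- If conjugation by `u` maps a finite-dimensional subalgebra into itself, so does conjugation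
by the inverse of `u`. -/
theorem conj_inv_mem_of_finiteDimensional (A : Subalgebra F D) [FiniteDimensional F A] (u : Dˣ)
    (hu : ∀ x ∈ A, conjAlg (F := F) u x ∈ A) : ∀ x ∈ A, conjAlg (F := F) u⁻¹ x ∈ A := by
  let f : A →ₗ[F] A :=
    { toFun := fun x => ⟨conjAlg (F := F) u x, hu x x.2⟩
      map_add' := fun x y => Subtype.ext (by simp)
      map_smul' := fun c x => Subtype.ext (by simp) }
  have hinj : Function.Injective f := by
    intro x y hxy
    have h1 : conjAlg (F := F) u (x : D) = conjAlg (F := F) u (y : D) := congrArg Subtype.val hxy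
    have h2 := congrArg (conjAlg (F := F) u⁻¹) h1
    rw [conjAlg_inv_conjAlg, conjAlg_inv_conjAlg] at h2
    exact Subtype.ext h2
  intro x hx
  obtain ⟨y, hy⟩ := (LinearMap.injective_iff_surjective.mp hinj) ⟨x, hx⟩
  have h1 : conjAlg (F := F) u (y : D) = x := congrArg Subtype.val hy
  rw [← h1, conjAlg_inv_conjAlg]
  exact y.2

/-- Dedekind-type lemma for multiplicative self-maps of a division subalgebra: a nontrivial left
linear relation forces two of the maps to differ by an inner automorphism. -/
theorem dedekind_inner (A : Subalgebra F D) (hinv : ∀ a ∈ A, a⁻¹ ∈ A)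
    {ι : Type*} [DecidableEq ι] (τ : ι → D → D)
    (hone : ∀ i, τ i 1 = 1)
    (hmul : ∀ i, ∀ z ∈ A, ∀ y ∈ A, τ i (z * y) = τ i z * τ i y)
    (hτA : ∀ i, ∀ y ∈ A, τ i y ∈ A)
    (s : Finset ι)
    (hout : ∀ i ∈ s, ∀ j ∈ s, i ≠ j → ∀ a ∈ A, a ≠ 0 → ¬ ∀ z ∈ A, a * τ i z = τ j z * a) :
    ∀ e : ι → D, (∀ i, e i ∈ A) → (∀ y ∈ A, ∑ i ∈ s, e i * τ i y = 0) → ∀ i ∈ s, e i = 0 := by
  induction s using Finset.induction_on with
  | empty => intro e _ _ i hi; simp at hi
  | insert i₀ t hi₀ ih =>
    intro e heA he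
    have hout' : ∀ i ∈ t, ∀ j ∈ t, i ≠ j → ∀ a ∈ A, a ≠ 0 →
        ¬ ∀ z ∈ A, a * τ i z = τ j z * a := fun i hi j hj =>
      hout i (Finset.mem_insert_of_mem hi) j (Finset.mem_insert_of_mem hj)
    have he' : ∀ y ∈ A, e i₀ * τ i₀ y + ∑ i ∈ t, e i * τ i y = 0 := by
      intro y hy
      have := he y hy
      rwa [Finset.sum_insert hi₀] at this
    by_cases h0 : e i₀ = 0
    · have ht : ∀ i ∈ t, e i = 0 := by
        apply ih hout' e heA
        intro y hy
        have := he' y hy
        rwa [h0, zero_mul, zero_add] at this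
      intro i hi
      rcases Finset.mem_insert.mp hi with rfl | hi
      · exact h0
      · exact ht i hi
    · exfalso
      -- all other coefficients vanish
      have ht : ∀ i ∈ t, e i = 0 := by
        intro i hi
        by_contra hei
        have hne : i ≠ i₀ := fun h => hi₀ (h ▸ hi)
        apply hout i (Finset.mem_insert_of_mem hi) i₀ (Finset.mem_insert_self i₀ t) hne
          ((e i₀)⁻¹ * e i) (A.mul_mem (hinv _ (heA i₀)) (heA i))
          (mul_ne_zero (inv_ne_zero h0) hei)
        intro z hz
        set u := e i₀ * τ i₀ z * (e i₀)⁻¹ with hu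
        have huA : u ∈ A := A.mul_mem (A.mul_mem (heA i₀) (hτA i₀ z hz)) (hinv _ (heA i₀))
        have key : ∀ y ∈ A, ∑ j ∈ t, (e j * τ j z - u * e j) * τ j y = 0 := by
          intro y hy
          have h1 : ∑ j ∈ t, (e j * τ j z - u * e j) * τ j y =
              ∑ j ∈ t, e j * τ j (z * y) - u * ∑ j ∈ t, e j * τ j y := by
            rw [Finset.mul_sum, ← Finset.sum_sub_distrib]
            apply Finset.sum_congr rfl
            intro j _
            rw [hmul j z hz y hy, sub_mul, mul_assoc, mul_assoc, mul_assoc]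
          have h2 : ∑ j ∈ t, e j * τ j (z * y) = -(e i₀ * τ i₀ (z * y)) :=
            eq_neg_of_add_eq_zero_right (he' (z * y) (A.mul_mem hz hy))
          have h3 : ∑ j ∈ t, e j * τ j y = -(e i₀ * τ i₀ y) :=
            eq_neg_of_add_eq_zero_right (he' y hy)
          rw [h1, h2, h3, hmul i₀ z hz y hy, hu]
          have h4 : e i₀ * τ i₀ z * (e i₀)⁻¹ * -(e i₀ * τ i₀ y) = -(e i₀ * (τ i₀ z * τ i₀ y)) := by
            rw [mul_neg, mul_assoc, mul_assoc, inv_mul_cancel_left₀ h0]
          rw [h4]
          simp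
        have h5 := ih hout' (fun j => e j * τ j z - u * e j)
          (fun j => A.sub_mem (A.mul_mem (heA j) (hτA j z hz)) (A.mul_mem huA (heA j))) key i hi
        have h6 : e i * τ i z = u * e i := sub_eq_zero.mp h5
        rw [mul_assoc, h6, hu]
        simp only [mul_assoc]
        rw [inv_mul_cancel_left₀ h0]
      have h7 := he' 1 A.one_mem
      rw [hone, mul_one, Finset.sum_eq_zero (fun j hj => by rw [ht j hj, zero_mul]),
        add_zero] at h7
      exact h0 h7

/-- A unit normalizing a finite-dimensional subalgebra `A` acts on `A`, after raising it to a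
suitable positive power, as conjugation by a nonzero element of `A`. -/
theorem exists_pow_inner (halg : Algebra.IsAlgebraic F D) (A : Subalgebra F D)
    [FiniteDimensional F A] (h : Dˣ) (hA : ∀ x ∈ A, conjAlg (F := F) h x ∈ A) :
    ∃ k : ℕ, 0 < k ∧ ∃ b ∈ A, b ≠ 0 ∧ ∀ x ∈ A, conjAlg (F := F) (h ^ k) x * b = b * x := by
  have hinv : ∀ a ∈ A, a⁻¹ ∈ A := fun a ha => inv_mem_of_finiteDimensional A ha
  have hA' : ∀ x ∈ A, conjAlg (F := F) h⁻¹ x ∈ A := conj_inv_mem_of_finiteDimensional A h hA
  have hpow : ∀ i : ℕ, ∀ x ∈ A, conjAlg (F := F) (h ^ i) x ∈ A := by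
    intro i
    induction i with
    | zero => intro x hx; simpa [conjAlg_one] using hx
    | succ i ih =>
      intro x hx
      rw [pow_succ', conjAlg_mul]
      exact hA _ (ih x hx)
  have hpow' : ∀ i : ℕ, ∀ x ∈ A, conjAlg (F := F) (h ^ i)⁻¹ x ∈ A := by
    intro i
    induction i with
    | zero => intro x hx; simpa [conjAlg_one] using hx
    | succ i ih =>
      intro x hx
      rw [pow_succ, mul_inv_rev, conjAlg_mul]
      exact hA' _ (ih x hx)
  obtain ⟨s, g, hne, hrel⟩ := universal_relation halg h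
  by_contra hcon
  have hout : ∀ i ∈ s, ∀ j ∈ s, i ≠ j → ∀ a ∈ A, a ≠ 0 →
      ¬ ∀ z ∈ A, a * conjAlg (F := F) (h ^ i) z = conjAlg (F := F) (h ^ j) z * a := by
    intro i _ j _ hij a haA ha0 hz
    rcases lt_or_gt_of_ne hij with hlt | hlt
    · -- `i < j`: conjugation by `h ^ (j - i)` is conjugation by `a`
      apply hcon
      refine ⟨j - i, Nat.sub_pos_of_lt hlt, a, haA, ha0, fun x hx => ?_⟩
      have h1 := hz (conjAlg (F := F) (h ^ i)⁻¹ x) (hpow' i x hx)
      rw [conjAlg_conjAlg_inv, ← conjAlg_mul] at h1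
      have h2 : h ^ j * (h ^ i)⁻¹ = h ^ (j - i) := by
        have hj : j = (j - i) + i := by omega
        rw [hj, pow_add]
        simp
      rw [h2] at h1
      exact h1.symm
    · -- `j < i`: conjugation by `h ^ (i - j)` is conjugation by the inverse of `a`
      apply hcon
      refine ⟨i - j, Nat.sub_pos_of_lt hlt, a⁻¹, hinv a haA, inv_ne_zero ha0, fun x hx => ?_⟩
      have h1 := hz (conjAlg (F := F) (h ^ j)⁻¹ x) (hpow' j x hx)
      rw [conjAlg_conjAlg_inv, ← conjAlg_mul] at h1
      have h2 : h ^ i * (h ^ j)⁻¹ = h ^ (i - j) := by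
        have hi : i = (i - j) + j := by omega
        rw [hi, pow_add]
        simp
      rw [h2] at h1
      -- `h1 : a * conj x = x * a`
      calc conjAlg (F := F) (h ^ (i - j)) x * a⁻¹
          = a⁻¹ * (a * conjAlg (F := F) (h ^ (i - j)) x) * a⁻¹ := by
            rw [inv_mul_cancel_left₀ ha0]
        _ = a⁻¹ * (x * a) * a⁻¹ := by rw [h1]
        _ = a⁻¹ * x := by rw [mul_assoc, mul_assoc, mul_inv_cancel₀ ha0, mul_one]
  have hzero := dedekind_inner A hinv (fun i => conjAlg (F := F) (h ^ i))
    (fun i => map_one _) (fun i z _ y _ => map_mul _ z y) hpow s hout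
    (fun i => algebraMap F D (g i)) (fun i => A.algebraMap_mem (g i)) (by
      intro y _
      rw [← hrel y]
      apply Finset.sum_congr rfl
      intro i _
      rw [← Algebra.smul_def, conjAlg_apply])
  obtain ⟨i, hi, hgi⟩ := hne
  exact hgi ((map_eq_zero (algebraMap F D)).mp (hzero i hi))

end Vale.Agent.Lib.P199
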