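import Mathlib

/-!
# Kurosh's problem: normalizing generators

Let `D` be a division ring that is algebraic over a central subfield `F`.  If `A` is a
finite-dimensional subalgebra and `b` semi-normalizes `A` (for every `x ∈ A` there is `x' ∈ A`
with `b * x = x' * b`), then the subalgebra generated by `A` and `b` is finite-dimensional.
-/

namespace Vale.Agent.Lib.P199

open Submodule

variable {F D : Type*} [Field F] [Ring D] [Algebra F D]

/-- One normalizing step. -/
theorem adjoin_le_mul (A : Subalgebra F D) (b : D)
    (hb : ∀ x ∈ A, ∃ x' ∈ A, b * x = x' * b) :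
    (Algebra.adjoin F ((A : Set D) ∪ {b})).toSubmodule ≤
      A.toSubmodule * (Algebra.adjoin F {b}).toSubmodule := by
  set B := Algebra.adjoin F ({b} : Set D) with hB
  set M : Submodule F D := A.toSubmodule * B.toSubmodule with hM
  have hbB : b ∈ B := Algebra.subset_adjoin (Set.mem_singleton b)
  -- every element of the adjoined algebra maps `M` into `M` by left multiplication
  have key : ∀ z ∈ Algebra.adjoin F ((A : Set D) ∪ {b}), ∀ y ∈ M, z * y ∈ M := by
    intro z hz
    induction hz using Algebra.adjoin_induction with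
    | mem z hz =>
      intro y hy
      rcases hz with hz | hz
      · refine Submodule.mul_induction_on hy ?_ ?_
        · intro a ha β hβ
          rw [← mul_assoc]
          exact Submodule.mul_mem_mul (A.mul_mem hz ha) hβ
        · intro y₁ y₂ h₁ h₂
          rw [mul_add]; exact M.add_mem h₁ h₂
      · rw [Set.mem_singleton_iff] at hz
        subst hz
        refine Submodule.mul_induction_on hy ?_ ?_
        · intro a ha β hβ
          obtain ⟨a', ha', h⟩ := hb a ha
          rw [← mul_assoc, h, mul_assoc]
          exact Submodule.mul_mem_mul ha' (B.mul_mem hbB hβ)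
        · intro y₁ y₂ h₁ h₂
          rw [mul_add]; exact M.add_mem h₁ h₂
    | algebraMap r =>
      intro y hy
      rw [← Algebra.smul_def]
      exact M.smul_mem r hy
    | add z₁ z₂ _ _ h₁ h₂ =>
      intro y hy
      rw [add_mul]; exact M.add_mem (h₁ y hy) (h₂ y hy)
    | mul z₁ z₂ _ _ h₁ h₂ =>
      intro y hy
      rw [mul_assoc]; exact h₁ _ (h₂ y hy)
  intro z hz
  have h1 : (1 : D) ∈ M := by
    have : (1 : D) * 1 ∈ M := Submodule.mul_mem_mul A.one_mem B.one_mem
    simpa using this
  simpa using key z hz 1 h1

end Vale.Agent.Lib.P199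

namespace Vale.Agent.Lib.P199

variable {F D : Type*} [Field F] [DivisionRing D] [Algebra F D]

/-- One normalizing step, finite-dimensionality. -/
theorem finiteDimensional_step (halg : Algebra.IsAlgebraic F D) (A : Subalgebra F D) (b : D)
    (hA : FiniteDimensional F A) (hb : ∀ x ∈ A, b * x * b⁻¹ ∈ A) :
    FiniteDimensional F (Algebra.adjoin F ((A : Set D) ∪ {b})) := by
  have hb' : ∀ x ∈ A, ∃ x' ∈ A, b * x = x' * b := by
    intro x hx
    by_cases h0 : b = 0
    · exact ⟨0, A.zero_mem, by simp [h0]⟩
    · exact ⟨b * x * b⁻¹, hb x hx, by rw [inv_mul_cancel_right₀ h0]⟩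
  have hle := adjoin_le_mul A b hb'
  have hAfg : A.toSubmodule.FG := Module.Finite.iff_fg.mp hA
  have hBfg : (Algebra.adjoin F ({b} : Set D)).toSubmodule.FG :=
    IsIntegral.fg_adjoin_singleton ((halg.isAlgebraic b).isIntegral)
  have hM : (A.toSubmodule * (Algebra.adjoin F ({b} : Set D)).toSubmodule).FG :=
    hAfg.mul hBfg
  have : FiniteDimensional F
      (A.toSubmodule * (Algebra.adjoin F ({b} : Set D)).toSubmodule :) :=
    Module.Finite.iff_fg.mpr hM
  exact Submodule.finiteDimensional_of_le hle

/-- Normalizing chains. -/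
theorem finiteDimensional_chain (halg : Algebra.IsAlgebraic F D) (s : ℕ → D) (n : ℕ)
    (h : ∀ i < n, ∀ x ∈ Algebra.adjoin F (s '' Set.Iio i),
      s i * x * (s i)⁻¹ ∈ Algebra.adjoin F (s '' Set.Iio i)) :
    FiniteDimensional F (Algebra.adjoin F (s '' Set.Iio n)) := by
  induction n with
  | zero =>
    have : s '' Set.Iio 0 = ∅ := by simp
    rw [this, Algebra.adjoin_empty]
    infer_instance
  | succ n ih =>
    have ih' := ih (fun i hi => h i (Nat.lt_succ_of_lt hi))
    have hstep := finiteDimensional_step halg (Algebra.adjoin F (s '' Set.Iio n)) (s n) ih'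
      (h n (Nat.lt_succ_self n))
    have hsub : Algebra.adjoin F (s '' Set.Iio (n + 1)) ≤
        Algebra.adjoin F (((Algebra.adjoin F (s '' Set.Iio n) : Subalgebra F D) : Set D) ∪
          {s n}) := by
      apply Algebra.adjoin_mono
      rintro _ ⟨j, hj, rfl⟩
      rcases Nat.lt_succ_iff_lt_or_eq.mp hj with hj | hj
      · exact Or.inl (Algebra.subset_adjoin ⟨j, hj, rfl⟩)
      · exact Or.inr (by simp [hj])
    exact Submodule.finiteDimensional_of_le (Subalgebra.toSubmodule.monotone hsub)

/-- Pairwise quasi-commuting generators. -/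
theorem finiteDimensional_quasiCommuting (halg : Algebra.IsAlgebraic F D) (S : Set D)
    (hS : S.Finite) (h : ∀ a ∈ S, ∀ b ∈ S, ∃ c : F, a * b = c • (b * a)) :
    FiniteDimensional F (Algebra.adjoin F S) := by
  induction S, hS using Set.Finite.induction_on with
  | empty =>
    rw [Algebra.adjoin_empty]
    infer_instance
  | @insert b T hbT hT ih =>
    have ih' := ih (fun a ha c hc => h a (Set.mem_insert_of_mem _ ha) c
      (Set.mem_insert_of_mem _ hc))
    have hnorm : ∀ x ∈ Algebra.adjoin F T, b * x * b⁻¹ ∈ Algebra.adjoin F T := by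
      by_cases h0 : b = 0
      · intro x _
        simp [h0]
      intro x hx
      induction hx using Algebra.adjoin_induction with
      | mem t ht =>
        obtain ⟨c, hc⟩ := h b (Set.mem_insert _ _) t (Set.mem_insert_of_mem _ ht)
        rw [hc, smul_mul_assoc, mul_assoc, mul_inv_cancel₀ h0, mul_one]
        exact Subalgebra.smul_mem _ (Algebra.subset_adjoin ht) c
      | algebraMap r =>
        rw [← Algebra.commutes r b, mul_assoc, mul_inv_cancel₀ h0, mul_one]
        exact Subalgebra.algebraMap_mem _ r
      | add x y _ _ hx hy =>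
        rw [mul_add, add_mul]
        exact Subalgebra.add_mem _ hx hy
      | mul x y _ _ hx hy =>
        have : b * (x * y) * b⁻¹ = (b * x * b⁻¹) * (b * y * b⁻¹) := by
          simp only [mul_assoc]
          rw [inv_mul_cancel_left₀ h0]
        rw [this]
        exact Subalgebra.mul_mem _ hx hy
    have hstep := finiteDimensional_step halg (Algebra.adjoin F T) b ih' hnorm
    have hsub : Algebra.adjoin F (insert b T) ≤
        Algebra.adjoin F (((Algebra.adjoin F T : Subalgebra F D) : Set D) ∪ {b}) := by
      apply Algebra.adjoin_mono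
      rintro x (rfl | hx)
      · exact Or.inr rfl
      · exact Or.inl (Algebra.subset_adjoin hx)
    exact Submodule.finiteDimensional_of_le (Subalgebra.toSubmodule.monotone hsub)

end Vale.Agent.Lib.P199
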