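import Vale.Agent.Lib.P199.Inner

/-!
# Kurosh's problem: solvable-by-finite groups over a finite-dimensional normalized subalgebra

Let `D` be a division ring algebraic over a central subfield `F`, `A` a finite-dimensional
subalgebra, and `G` a finitely generated group with a homomorphism `φ : G →* Dˣ` whose image
normalizes `A`.  If some term of the derived series of `G` is mapped into `A`, then the span of
`φ(G)` is finite-dimensional.
-/

namespace Vale.Agent.Lib.P199

open scoped commutatorElement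

universe u

variable {F : Type*} {D : Type u} [Field F] [DivisionRing D] [Algebra F D]

section Over

variable {G : Type*} [Group G] (A : Subalgebra F D) (φ : G →* Dˣ)

/-- `c` lies over `g`: `c = a * φ g` for a nonzero `a ∈ A`. -/
def Over (c : Dˣ) (g : G) : Prop := ∃ a ∈ A, a ≠ 0 ∧ (c : D) = a * ((φ g : Dˣ) : D)

theorem over_one : Over A φ 1 1 := ⟨1, A.one_mem, one_ne_zero, by simp⟩

theorem over_mul (hnorm : ∀ g : G, ∀ x ∈ A, conjAlg (F := F) (φ g) x ∈ A) {c c' : Dˣ}
    {g g' : G} (h : Over A φ c g) (h' : Over A φ c' g') : Over A φ (c * c') (g * g') := by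
  obtain ⟨a, ha, ha0, hc⟩ := h
  obtain ⟨a', ha', ha0', hc'⟩ := h'
  refine ⟨a * conjAlg (F := F) (φ g) a', A.mul_mem ha (hnorm g a' ha'),
    mul_ne_zero ha0 ((map_ne_zero _).mpr ha0'), ?_⟩
  rw [Units.val_mul, hc, hc', conjAlg_apply, map_mul, Units.val_mul]
  simp [mul_assoc]

theorem over_inv (hinv : ∀ a ∈ A, a⁻¹ ∈ A)
    (hnorm : ∀ g : G, ∀ x ∈ A, conjAlg (F := F) (φ g) x ∈ A) {c : Dˣ} {g : G}
    (h : Over A φ c g) : Over A φ c⁻¹ g⁻¹ := by
  obtain ⟨a, ha, ha0, hc⟩ := h
  refine ⟨conjAlg (F := F) (φ g⁻¹) a⁻¹, hnorm g⁻¹ _ (hinv a ha),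
    (map_ne_zero _).mpr (inv_ne_zero ha0), ?_⟩
  have h1 : ((c⁻¹ : Dˣ) : D) = (((φ g)⁻¹ : Dˣ) : D) * a⁻¹ := by
    rw [Units.val_inv_eq_inv_val, hc, mul_inv_rev, Units.val_inv_eq_inv_val]
  rw [h1, conjAlg_apply, map_inv]
  simp [mul_assoc]

theorem over_commutator (hinv : ∀ a ∈ A, a⁻¹ ∈ A)
    (hnorm : ∀ g : G, ∀ x ∈ A, conjAlg (F := F) (φ g) x ∈ A) {c c' : Dˣ} {g g' : G}
    (h : Over A φ c g) (h' : Over A φ c' g') : Over A φ ⁅c, c'⁆ ⁅g, g'⁆ := by
  rw [commutatorElement_def, commutatorElement_def]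
  exact over_mul A φ hnorm (over_mul A φ hnorm (over_mul A φ hnorm h h')
    (over_inv A φ hinv hnorm h)) (over_inv A φ hinv hnorm h')

/-- The units lying over elements of a subgroup. -/
def overSubgroup (hinv : ∀ a ∈ A, a⁻¹ ∈ A)
    (hnorm : ∀ g : G, ∀ x ∈ A, conjAlg (F := F) (φ g) x ∈ A) (M : Subgroup G) :
    Subgroup Dˣ where
  carrier := {c | ∃ g ∈ M, Over A φ c g}
  mul_mem' := by
    rintro c c' ⟨g, hg, h⟩ ⟨g', hg', h'⟩
    exact ⟨g * g', M.mul_mem hg hg', over_mul A φ hnorm h h'⟩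
  one_mem' := ⟨1, M.one_mem, over_one A φ⟩
  inv_mem' := by
    rintro c ⟨g, hg, h⟩
    exact ⟨g⁻¹, M.inv_mem hg, over_inv A φ hinv hnorm h⟩

/-- Derived series of a group of units lying over `G`. -/
theorem derivedSeries_over (hinv : ∀ a ∈ A, a⁻¹ ∈ A)
    (hnorm : ∀ g : G, ∀ x ∈ A, conjAlg (F := F) (φ g) x ∈ A) (Γ : Subgroup Dˣ)
    (hΓ : ∀ c ∈ Γ, ∃ g : G, Over A φ c g) (j : ℕ) :
    ∀ c : Γ, c ∈ derivedSeries Γ j → ∃ g ∈ derivedSeries G j, Over A φ (c : Dˣ) g := by
  induction j with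
  | zero =>
    intro c _
    obtain ⟨g, hg⟩ := hΓ c c.2
    exact ⟨g, by rw [derivedSeries_zero]; trivial, hg⟩
  | succ j ih =>
    have hle : derivedSeries Γ (j + 1) ≤
        (overSubgroup A φ hinv hnorm (derivedSeries G (j + 1))).comap Γ.subtype := by
      rw [derivedSeries_succ, Subgroup.commutator_le]
      intro c₁ h₁ c₂ h₂
      obtain ⟨g₁, hg₁, ho₁⟩ := ih c₁ h₁
      obtain ⟨g₂, hg₂, ho₂⟩ := ih c₂ h₂
      rw [Subgroup.mem_comap, map_commutatorElement]
      refine ⟨⁅g₁, g₂⁆, ?_, over_commutator A φ hinv hnorm ho₁ ho₂⟩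
      rw [derivedSeries_succ]
      exact Subgroup.commutator_mem_commutator hg₁ hg₂
    intro c hc
    exact hle hc

end Over

/-- **Core theorem.** -/
theorem finiteDimensional_span_of_derived_mem (halg : Algebra.IsAlgebraic F D)
    (A : Subalgebra F D) [FiniteDimensional F A] (ℓ : ℕ) (G : Type u) [Group G] [Group.FG G]
    (φ : G →* Dˣ) (hnorm : ∀ g : G, ∀ x ∈ A, conjAlg (F := F) (φ g) x ∈ A)
    (hder : ∀ a ∈ derivedSeries G ℓ, ((φ a : Dˣ) : D) ∈ A) :
    FiniteDimensional F (Submodule.span F (Set.range fun g : G => ((φ g : Dˣ) : D))) := by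
  have hinv : ∀ a ∈ A, a⁻¹ ∈ A := fun a ha => inv_mem_of_finiteDimensional A ha
  -- the elements acting on `A` by inner automorphisms of `A`
  let G₁ : Subgroup G :=
    { carrier := {g | ∃ b ∈ A, b ≠ 0 ∧ ∀ x ∈ A, conjAlg (F := F) (φ g) x * b = b * x}
      mul_mem' := by
        rintro g g' ⟨b, hb, hb0, h⟩ ⟨b', hb', hb0', h'⟩
        refine ⟨b * b', A.mul_mem hb hb', mul_ne_zero hb0 hb0', fun x hx => ?_⟩
        rw [map_mul, conjAlg_mul, ← mul_assoc, h _ (hnorm g' x hx), mul_assoc, h' x hx,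
          mul_assoc]
      one_mem' := ⟨1, A.one_mem, one_ne_zero, fun x _ => by rw [map_one, conjAlg_one]; simp⟩
      inv_mem' := by
        rintro g ⟨b, hb, hb0, h⟩
        refine ⟨b⁻¹, hinv b hb, inv_ne_zero hb0, fun x hx => ?_⟩
        have h1 := h _ (hnorm g⁻¹ x hx)
        rw [map_inv, conjAlg_conjAlg_inv] at h1
        rw [map_inv]
        calc conjAlg (F := F) (φ g)⁻¹ x * b⁻¹
            = b⁻¹ * (b * conjAlg (F := F) (φ g)⁻¹ x) * b⁻¹ := by
              rw [inv_mul_cancel_left₀ hb0]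
          _ = b⁻¹ * (x * b) * b⁻¹ := by rw [h1]
          _ = b⁻¹ * x := by rw [mul_assoc, mul_assoc, mul_inv_cancel₀ hb0, mul_one] }
  have hG₁mem : ∀ g : G, g ∈ G₁ ↔
      ∃ b ∈ A, b ≠ 0 ∧ ∀ x ∈ A, conjAlg (F := F) (φ g) x * b = b * x := fun g => Iff.rfl
  have hG₁n : G₁.Normal := by
    constructor
    rintro g₁ ⟨b, hb, hb0, h⟩ g
    refine ⟨conjAlg (F := F) (φ g) b, hnorm g b hb, (map_ne_zero _).mpr hb0, fun x hx => ?_⟩
    have h1 := h _ (hnorm g⁻¹ x hx)
    have h2 := congrArg (conjAlg (F := F) (φ g)) h1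
    rw [map_mul, map_mul, map_inv, conjAlg_conjAlg_inv] at h2
    rw [map_mul, map_mul, conjAlg_mul, conjAlg_mul, map_inv]
    exact h2
  have hQfin : Finite (G ⧸ G₁) := by
    apply finite_of_derivedSeries_eq_bot ℓ (G ⧸ G₁)
    · intro q
      obtain ⟨g, rfl⟩ := QuotientGroup.mk_surjective q
      obtain ⟨k, hk, b, hb, hb0, h⟩ := exists_pow_inner halg A (φ g) (hnorm g)
      rw [isOfFinOrder_iff_pow_eq_one]
      refine ⟨k, hk, ?_⟩
      rw [← QuotientGroup.mk_pow, QuotientGroup.eq_one_iff, hG₁mem]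
      exact ⟨b, hb, hb0, fun x hx => by rw [map_pow]; exact h x hx⟩
    · rw [← map_derivedSeries_eq (QuotientGroup.mk'_surjective G₁) ℓ,
        Subgroup.map_eq_bot_iff, QuotientGroup.ker_mk']
      intro a ha
      rw [hG₁mem]
      refine ⟨_, hder a ha, Units.ne_zero _, fun x _ => ?_⟩
      rw [conjAlg_apply, mul_assoc, Units.inv_mul, mul_one]
  have : G₁.FiniteIndex := Subgroup.finiteIndex_of_finite_quotient
  have hfg₁ : Group.FG G₁ := Subgroup.fg_of_index_ne_zero G₁
  obtain ⟨S, hS, hSfin⟩ := Group.fg_iff.mp hfg₁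
  -- centralizing parts
  choose b hbA hb0 hb using fun g : G₁ => (hG₁mem g).mp g.2
  let c : G₁ → Dˣ := fun g => Units.mk0 ((b g)⁻¹ * ((φ g : Dˣ) : D))
    (mul_ne_zero (inv_ne_zero (hb0 g)) (Units.ne_zero _))
  have hc_val : ∀ g : G₁, ((c g : Dˣ) : D) = (b g)⁻¹ * ((φ g : Dˣ) : D) := fun g => rfl
  have hc_comm : ∀ g : G₁, ∀ x ∈ A, ((c g : Dˣ) : D) * x = x * ((c g : Dˣ) : D) := by
    intro g x hx
    have h1 := hb g x hx
    rw [conjAlg_apply] at h1
    rw [hc_val]
    calc (b g)⁻¹ * ((φ g : Dˣ) : D) * x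
        = (b g)⁻¹ * (((φ g : Dˣ) : D) * x * (((φ g)⁻¹ : Dˣ) : D) * b g) * ((b g)⁻¹ *
            ((φ g : Dˣ) : D)) := by
          simp only [mul_assoc]
          rw [mul_inv_cancel_left₀ (hb0 g), Units.inv_mul, mul_one]
      _ = (b g)⁻¹ * (b g * x) * ((b g)⁻¹ * ((φ g : Dˣ) : D)) := by rw [h1]
      _ = x * ((b g)⁻¹ * ((φ g : Dˣ) : D)) := by rw [inv_mul_cancel_left₀ (hb0 g)]
  set Γ : Subgroup Dˣ := Subgroup.closure (c '' S) with hΓ
  have hΓfg : Group.FG Γ :=
    (Group.fg_iff_subgroup_fg _).mpr ⟨(hSfin.image c).toFinset, by simp [hΓ]⟩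
  -- elements of `Γ` commute with `A`
  have hΓcomm : ∀ γ ∈ Γ, ∀ x ∈ A, ((γ : Dˣ) : D) * x = x * ((γ : Dˣ) : D) := by
    intro γ hγ
    induction hγ using Subgroup.closure_induction with
    | mem γ hγ =>
      obtain ⟨g, _, rfl⟩ := hγ
      exact hc_comm g
    | one => intro x _; simp
    | mul γ γ' _ _ h h' =>
      intro x hx
      rw [Units.val_mul, mul_assoc, h' x hx, ← mul_assoc, h x hx, mul_assoc]
    | inv γ _ h =>
      intro x hx
      have h1 := h x hx
      calc ((γ⁻¹ : Dˣ) : D) * x = ((γ⁻¹ : Dˣ) : D) * (x * (γ : D)) * ((γ⁻¹ : Dˣ) : D) := by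
            rw [mul_assoc, mul_assoc, Units.mul_inv, mul_one]
        _ = ((γ⁻¹ : Dˣ) : D) * ((γ : D) * x) * ((γ⁻¹ : Dˣ) : D) := by rw [h1]
        _ = x * ((γ⁻¹ : Dˣ) : D) := by rw [Units.inv_mul_cancel_left]
  -- elements of `Γ` lie over elements of `G`
  have hΓover : ∀ γ ∈ Γ, ∃ g : G, Over A φ γ g := by
    intro γ hγ
    induction hγ using Subgroup.closure_induction with
    | mem γ hγ =>
      obtain ⟨g, _, rfl⟩ := hγ
      exact ⟨g, (b g)⁻¹, hinv _ (hbA g), inv_ne_zero (hb0 g), hc_val g⟩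
    | one => exact ⟨1, over_one A φ⟩
    | mul γ γ' _ _ h h' =>
      obtain ⟨g, hg⟩ := h
      obtain ⟨g', hg'⟩ := h'
      exact ⟨g * g', over_mul A φ hnorm hg hg'⟩
    | inv γ _ h =>
      obtain ⟨g, hg⟩ := h
      exact ⟨g⁻¹, over_inv A φ hinv hnorm hg⟩
  -- the span of `Γ` is finite-dimensional
  have hV : FiniteDimensional F
      (Submodule.span F (Set.range fun γ : Γ => (((Γ.subtype γ : Dˣ)) : D))) := by
    apply finiteDimensional_of_derived_central halg ℓ Γ Γ.subtype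
    intro γ hγ γ'
    obtain ⟨g, hg, a, ha, _, hval⟩ := derivedSeries_over A φ hinv hnorm Γ hΓover ℓ γ hγ
    have hγA : ((γ : Dˣ) : D) ∈ A := by
      rw [hval]
      exact A.mul_mem ha (hder g hg)
    have h1 := hΓcomm γ' γ'.2 _ hγA
    apply Units.ext
    simp only [Subgroup.coe_subtype, Units.val_mul]
    exact h1.symm
  set V := Submodule.span F (Set.range fun γ : Γ => (((Γ.subtype γ : Dˣ)) : D)) with hVdef
  -- every element of `G₁` is a product of an element of `A` and an element of `Γ`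
  have hdecomp : ∀ g : G₁, ∃ a ∈ A, a ≠ 0 ∧ ∃ γ ∈ Γ,
      ((φ g : Dˣ) : D) = a * ((γ : Dˣ) : D) := by
    intro g
    have hg : g ∈ Subgroup.closure S := by rw [hS]; trivial
    induction hg using Subgroup.closure_induction with
    | mem g hg =>
      refine ⟨b g, hbA g, hb0 g, c g, Subgroup.subset_closure ⟨g, hg, rfl⟩, ?_⟩
      rw [hc_val, mul_inv_cancel_left₀ (hb0 g)]
    | one => exact ⟨1, A.one_mem, one_ne_zero, 1, Γ.one_mem, by simp⟩
    | mul g g' _ _ h h' =>
      obtain ⟨a, ha, ha0, γ, hγ, e⟩ := h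
      obtain ⟨a', ha', ha0', γ', hγ', e'⟩ := h'
      refine ⟨a * a', A.mul_mem ha ha', mul_ne_zero ha0 ha0', γ * γ', Γ.mul_mem hγ hγ', ?_⟩
      rw [Subgroup.coe_mul, map_mul, Units.val_mul, e, e', Units.val_mul]
      rw [mul_assoc, ← mul_assoc (γ : D), hΓcomm γ hγ a' ha']
      simp only [mul_assoc]
    | inv g _ h =>
      obtain ⟨a, ha, ha0, γ, hγ, e⟩ := h
      refine ⟨a⁻¹, hinv a ha, inv_ne_zero ha0, γ⁻¹, Γ.inv_mem hγ, ?_⟩
      rw [Subgroup.coe_inv, map_inv, Units.val_inv_eq_inv_val, e, mul_inv_rev,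
        ← Units.val_inv_eq_inv_val]
      exact hΓcomm γ⁻¹ (Γ.inv_mem hγ) a⁻¹ (hinv a ha)
  have hle : Submodule.span F (Set.range fun g : G₁ => ((φ g : Dˣ) : D)) ≤
      Subalgebra.toSubmodule A * V := by
    rw [Submodule.span_le]
    rintro _ ⟨g, rfl⟩
    obtain ⟨a, ha, _, γ, hγ, e⟩ := hdecomp g
    show ((φ g : Dˣ) : D) ∈ Subalgebra.toSubmodule A * V
    rw [e]
    exact Submodule.mul_mem_mul ha (Submodule.subset_span ⟨⟨γ, hγ⟩, rfl⟩)
  have hAV : FiniteDimensional F (Subalgebra.toSubmodule A * V :) := by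
    have h1 : (Subalgebra.toSubmodule A).FG := Module.Finite.iff_fg.mp inferInstance
    have h2 : V.FG := Module.Finite.iff_fg.mp hV
    exact Module.Finite.iff_fg.mpr (h1.mul h2)
  have hG₁fd : FiniteDimensional F
      (Submodule.span F (Set.range fun g : G₁ => ((φ g : Dˣ) : D))) :=
    Submodule.finiteDimensional_of_le hle
  exact finiteDimensional_of_finiteIndex φ G₁ hG₁fd

/-- The subalgebra generated by `A` and a normalizing group lies in the product of `A` and the
span of the group. -/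
theorem adjoin_union_le_mul {G : Type*} [Group G] (A : Subalgebra F D) (φ : G →* Dˣ)
    (hnorm : ∀ g : G, ∀ x ∈ A, conjAlg (F := F) (φ g) x ∈ A) :
    Subalgebra.toSubmodule
        (Algebra.adjoin F ((A : Set D) ∪ Set.range fun g : G => ((φ g : Dˣ) : D))) ≤
      Subalgebra.toSubmodule A *
        Submodule.span F (Set.range fun g : G => ((φ g : Dˣ) : D)) := by
  set W := Submodule.span F (Set.range fun g : G => ((φ g : Dˣ) : D)) with hW
  set M : Submodule F D := Subalgebra.toSubmodule A * W with hM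
  have hWmul : ∀ g : G, ∀ w ∈ W, ((φ g : Dˣ) : D) * w ∈ W := by
    intro g w hw
    induction hw using Submodule.span_induction with
    | mem w hw =>
      obtain ⟨g', rfl⟩ := hw
      exact Submodule.subset_span ⟨g * g', by simp⟩
    | zero => simp
    | add x y _ _ hx hy => rw [mul_add]; exact W.add_mem hx hy
    | smul r x _ hx => rw [mul_smul_comm]; exact W.smul_mem r hx
  have key : ∀ z ∈ Algebra.adjoin F ((A : Set D) ∪ Set.range fun g : G => ((φ g : Dˣ) : D)),
      ∀ y ∈ M, z * y ∈ M := by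
    intro z hz
    induction hz using Algebra.adjoin_induction with
    | mem z hz =>
      intro y hy
      rcases hz with hz | ⟨g, rfl⟩
      · refine Submodule.mul_induction_on hy ?_ ?_
        · intro a ha w hw
          rw [← mul_assoc]
          exact Submodule.mul_mem_mul (A.mul_mem hz ha) hw
        · intro y₁ y₂ h₁ h₂
          rw [mul_add]; exact M.add_mem h₁ h₂
      · refine Submodule.mul_induction_on hy ?_ ?_
        · intro a ha w hw
          have e : ((φ g : Dˣ) : D) * (a * w) =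
              conjAlg (F := F) (φ g) a * (((φ g : Dˣ) : D) * w) := by
            rw [conjAlg_apply]; simp [mul_assoc]
          rw [e]
          exact Submodule.mul_mem_mul (hnorm g a ha) (hWmul g w hw)
        · intro y₁ y₂ h₁ h₂
          rw [mul_add]; exact M.add_mem h₁ h₂
    | algebraMap r =>
      intro y hy
      rw [← Algebra.smul_def]
      exact M.smul_mem r hy
    | add z₁ z₂ _ _ h₁ h₂ =>
      intro y hy
      rw [add_mul]; exact M.add_mem (h₁ y hy) (h₂ y hy)
    | mul z₁ z₂ _ _ h₁ h₂ =>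
      intro y hy
      rw [mul_assoc]; exact h₁ _ (h₂ y hy)
  intro z hz
  have h1 : (1 : D) ∈ M := by
    have : (1 : D) * 1 ∈ M :=
      Submodule.mul_mem_mul A.one_mem (Submodule.subset_span ⟨1, by simp⟩)
    simpa using this
  simpa using key z hz 1 h1

/-- Finite-index version, for the generated subalgebra. -/
theorem finiteDimensional_adjoin_of_normalized (halg : Algebra.IsAlgebraic F D)
    (A : Subalgebra F D) [FiniteDimensional F A] (ℓ : ℕ) (G : Type u) [Group G] [Group.FG G]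
    (φ : G →* Dˣ) (hnorm : ∀ g : G, ∀ x ∈ A, conjAlg (F := F) (φ g) x ∈ A)
    (H : Subgroup G) [Finite (G ⧸ H)]
    (hder : ∀ a : H, a ∈ derivedSeries H ℓ → ((φ a : Dˣ) : D) ∈ A) :
    FiniteDimensional F
      (Algebra.adjoin F ((A : Set D) ∪ Set.range fun g : G => ((φ g : Dˣ) : D))) := by
  have : H.FiniteIndex := Subgroup.finiteIndex_of_finite_quotient
  have : Group.FG H := Subgroup.fg_of_index_ne_zero H
  have h1 := finiteDimensional_span_of_derived_mem halg A ℓ H (φ.comp H.subtype)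
    (fun g x hx => hnorm g x hx) (fun a ha => hder a ha)
  have h2 := finiteDimensional_of_finiteIndex (F := F) φ H h1
  have h3 : FiniteDimensional F (Subalgebra.toSubmodule A *
      Submodule.span F (Set.range fun g : G => ((φ g : Dˣ) : D)) :) :=
    Module.Finite.iff_fg.mpr
      ((Module.Finite.iff_fg.mp inferInstance).mul (Module.Finite.iff_fg.mp h2))
  exact Submodule.finiteDimensional_of_le (adjoin_union_le_mul A φ hnorm)

/-- **Relative theorem.**  `A` a finite-dimensional subalgebra, `T` a finite set of units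
normalizing `A`, `H` a subgroup of finite index of the group generated by `T` whose `ℓ`-th
derived subgroup lies in `A`: then `A` and `T` generate a finite-dimensional subalgebra. -/
theorem finiteDimensional_relative (halg : Algebra.IsAlgebraic F D) (A : Subalgebra F D)
    [FiniteDimensional F A] (T : Set Dˣ) (hT : T.Finite)
    (hnorm : ∀ t ∈ T, ∀ x ∈ A, (t : D) * x * ((t⁻¹ : Dˣ) : D) ∈ A)
    (H : Subgroup Dˣ) (hH : H ≤ Subgroup.closure T)
    (hidx : H.relIndex (Subgroup.closure T) ≠ 0) (ℓ : ℕ)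
    (hder : ∀ u : H, u ∈ derivedSeries H ℓ → ((u : Dˣ) : D) ∈ A) :
    FiniteDimensional F (Algebra.adjoin F ((A : Set D) ∪ (fun u : Dˣ => (u : D)) '' T)) := by
  let NA : Subgroup Dˣ :=
    { carrier := {u | (∀ x ∈ A, conjAlg (F := F) u x ∈ A) ∧
        ∀ x ∈ A, conjAlg (F := F) u⁻¹ x ∈ A}
      mul_mem' := by
        rintro u v ⟨hu, hu'⟩ ⟨hv, hv'⟩
        refine ⟨fun x hx => ?_, fun x hx => ?_⟩
        · rw [conjAlg_mul]; exact hu _ (hv x hx)
        · rw [mul_inv_rev, conjAlg_mul]; exact hv' _ (hu' x hx)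
      one_mem' := ⟨fun x hx => by rwa [conjAlg_one], fun x hx => by rwa [inv_one, conjAlg_one]⟩
      inv_mem' := by
        rintro u ⟨hu, hu'⟩
        exact ⟨hu', by rwa [inv_inv]⟩ }
  have hTN : Subgroup.closure T ≤ NA := by
    rw [Subgroup.closure_le]
    intro t ht
    have h1 : ∀ x ∈ A, conjAlg (F := F) t x ∈ A := fun x hx => by
      rw [conjAlg_apply]; exact hnorm t ht x hx
    exact ⟨h1, conj_inv_mem_of_finiteDimensional A t h1⟩
  have hfg : Group.FG (Subgroup.closure T) :=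
    (Group.fg_iff_subgroup_fg _).mpr ⟨hT.toFinset, by simp⟩
  set H' : Subgroup (Subgroup.closure T) := H.subgroupOf (Subgroup.closure T) with hH'
  have : H'.FiniteIndex := ⟨hidx⟩
  have : Finite (Subgroup.closure T ⧸ H') := Subgroup.finite_quotient_of_finiteIndex
  have h1 := finiteDimensional_adjoin_of_normalized (F := F) halg A ℓ (Subgroup.closure T)
    (Subgroup.closure T).subtype (fun g x hx => (hTN g.2).1 x hx) H' (by
      intro a ha
      have h2 : (Subgroup.subgroupOfEquivOfLe hH) a ∈ derivedSeries H ℓ :=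
        map_derivedSeries_le_derivedSeries (Subgroup.subgroupOfEquivOfLe hH).toMonoidHom ℓ
          ⟨a, ha, rfl⟩
      have h3 := hder _ h2
      simpa using h3)
  have hle : Algebra.adjoin F ((A : Set D) ∪ (fun u : Dˣ => (u : D)) '' T) ≤
      Algebra.adjoin F ((A : Set D) ∪ Set.range fun g : Subgroup.closure T =>
        ((((Subgroup.closure T).subtype g : Dˣ)) : D)) := by
    apply Algebra.adjoin_mono
    apply Set.union_subset_union_right
    rintro _ ⟨t, ht, rfl⟩
    exact ⟨⟨t, Subgroup.subset_closure ht⟩, rfl⟩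
  exact Submodule.finiteDimensional_of_le (Subalgebra.toSubmodule.monotone hle)

end Vale.Agent.Lib.P199
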