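import Vale.Agent.Lib.P199.Centralize

/-!
# Kurosh's problem: finitely generated solvable-by-finite multiplicative subgroups

Let `D` be a division ring algebraic over a central subfield `F`.  If `G` is a finitely generated
group and `φ : G →* Dˣ` is a homomorphism such that some term of the derived series of `G` is
mapped into the centralizer of `φ(G)`, then the `F`-span of `φ(G)` is finite-dimensional.  Hence
the subalgebra generated by finitely many units generating a solvable-by-finite group is
finite-dimensional.
-/

namespace Vale.Agent.Lib.P199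

open scoped commutatorElement

universe u

section GroupTheory

theorem map_derivedSeries_commutator_le (G : Type u) [Group G] (n : ℕ) :
    (derivedSeries (commutator G) n).map (commutator G).subtype ≤ derivedSeries G (n + 1) := by
  induction n with
  | zero =>
    rw [derivedSeries_zero, ← MonoidHom.range_eq_map, Subgroup.range_subtype, derivedSeries_one]
  | succ n ih =>
    rw [derivedSeries_succ, Subgroup.map_commutator, derivedSeries_succ G (n + 1)]
    exact Subgroup.commutator_mono ih ih

/-- A finitely generated torsion group whose derived series reaches the trivial subgroup is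
finite. -/
theorem finite_of_derivedSeries_eq_bot (n : ℕ) :
    ∀ (G : Type u) [Group G] [Group.FG G], (∀ g : G, IsOfFinOrder g) →
      derivedSeries G n = ⊥ → Finite G := by
  induction n with
  | zero =>
    intro G _ _ _ h
    rw [derivedSeries_zero] at h
    have hsub : Subsingleton G := by
      constructor
      intro a b
      have ha : a ∈ (⊤ : Subgroup G) := Subgroup.mem_top a
      have hb : b ∈ (⊤ : Subgroup G) := Subgroup.mem_top b
      rw [h, Subgroup.mem_bot] at ha hb
      rw [ha, hb]
    exact Finite.of_subsingleton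
  | succ n ih =>
    intro G _ _ htors h
    have hsurj : Function.Surjective (Abelianization.of : G →* Abelianization G) :=
      QuotientGroup.mk_surjective
    have hab_tors : IsMulTorsion (Abelianization G) :=
      IsMulTorsion.of_surjective (f := Abelianization.of) hsurj htors
    have hab_fg : Group.FG (Abelianization G) :=
      Group.fg_of_surjective (f := Abelianization.of) hsurj
    have hab_fin : Finite (Abelianization G) :=
      CommGroup.finite_of_fg_isMulTorsion (Abelianization G) hab_tors
    have hquot : Finite (G ⧸ commutator G) := hab_fin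
    have hidx : (commutator G).FiniteIndex := Subgroup.finiteIndex_of_finite_quotient
    have hfg : Group.FG (commutator G) := Subgroup.fg_of_index_ne_zero (commutator G)
    have htors' : ∀ g : commutator G, IsOfFinOrder g :=
      IsMulTorsion.subgroup htors (commutator G)
    have hbot : derivedSeries (commutator G) n = ⊥ := by
      have h1 := map_derivedSeries_commutator_le G n
      rw [h] at h1
      have h2 : (derivedSeries (commutator G) n).map (commutator G).subtype = ⊥ :=
        le_bot_iff.mp h1
      exact (Subgroup.map_eq_bot_iff_of_injective _ (commutator G).subtype_injective).mp h2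
    have hfin : Finite (commutator G) := ih (commutator G) htors' hbot
    exact Finite.of_equiv _ (Subgroup.groupEquivQuotientProdSubgroup (s := commutator G)).symm

end GroupTheory

variable {F : Type*} {D : Type u} [Field F] [DivisionRing D] [Algebra F D]

/-- Passing to a subgroup of finite index does not affect finite-dimensionality of the span. -/
theorem finiteDimensional_of_finiteIndex {G : Type*} [Group G] (φ : G →* Dˣ) (C : Subgroup G)
    [Finite (G ⧸ C)]
    (hC : FiniteDimensional F (Submodule.span F (Set.range fun c : C => ((φ c : Dˣ) : D)))) :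
    FiniteDimensional F (Submodule.span F (Set.range fun g : G => ((φ g : Dˣ) : D))) := by
  set V := Submodule.span F (Set.range fun c : C => ((φ c : Dˣ) : D)) with hV
  have hle : Submodule.span F (Set.range fun g : G => ((φ g : Dˣ) : D)) ≤
      ⨆ q : G ⧸ C, V.map (LinearMap.mulLeft F ((φ (Quotient.out q) : Dˣ) : D)) := by
    rw [Submodule.span_le]
    rintro _ ⟨g, rfl⟩
    have hq : (QuotientGroup.mk (Quotient.out (QuotientGroup.mk g : G ⧸ C)) : G ⧸ C) =
        QuotientGroup.mk g := QuotientGroup.out_eq' _
    have hmem : (Quotient.out (QuotientGroup.mk g : G ⧸ C))⁻¹ * g ∈ C := QuotientGroup.eq.mp hq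
    apply Submodule.mem_iSup_of_mem (QuotientGroup.mk g : G ⧸ C)
    refine ⟨((φ ((Quotient.out (QuotientGroup.mk g : G ⧸ C))⁻¹ * g) : Dˣ) : D),
      Submodule.subset_span ⟨⟨_, hmem⟩, rfl⟩, ?_⟩
    simp [← Units.val_mul, ← map_mul]
  exact Submodule.finiteDimensional_of_le hle

/-- Commutative image. -/
theorem finiteDimensional_span_of_commute (halg : Algebra.IsAlgebraic F D) {G : Type*} [Group G]
    [hfg : Group.FG G] (φ : G →* Dˣ) (hcomm : ∀ a g : G, Commute (φ a) (φ g)) :
    FiniteDimensional F (Submodule.span F (Set.range fun g : G => ((φ g : Dˣ) : D))) := by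
  obtain ⟨S, hS, hSfin⟩ := Group.fg_iff.mp hfg
  set S' : Set D := (fun g : G => ((φ g : Dˣ) : D)) '' (S ∪ S⁻¹) with hS'
  have hfin : S'.Finite := (hSfin.union hSfin.inv).image _
  have hfd : FiniteDimensional F (Algebra.adjoin F S') := by
    apply finiteDimensional_quasiCommuting halg S' hfin
    rintro _ ⟨a, _, rfl⟩ _ ⟨b, _, rfl⟩
    refine ⟨1, ?_⟩
    rw [one_smul, ← Units.val_mul, ← Units.val_mul, (hcomm a b).eq]
  have hle : Submodule.span F (Set.range fun g : G => ((φ g : Dˣ) : D)) ≤
      Subalgebra.toSubmodule (Algebra.adjoin F S') := by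
    rw [Submodule.span_le]
    rintro _ ⟨g, rfl⟩
    have hg : g ∈ Submonoid.closure (S ∪ S⁻¹) := by
      rw [← Subgroup.closure_toSubmonoid, hS]
      trivial
    show ((φ g : Dˣ) : D) ∈ Algebra.adjoin F S'
    induction hg using Submonoid.closure_induction with
    | mem x hx => exact Algebra.subset_adjoin ⟨x, hx, rfl⟩
    | one => simp
    | mul x y _ _ hx hy =>
      rw [map_mul, Units.val_mul]
      exact Subalgebra.mul_mem _ hx hy
  exact Submodule.finiteDimensional_of_le hle

/-- Induction on the derived length. -/
theorem finiteDimensional_of_derived_central (halg : Algebra.IsAlgebraic F D) (ℓ : ℕ) :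
    ∀ (G : Type u) [Group G] [Group.FG G] (φ : G →* Dˣ),
      (∀ a ∈ derivedSeries G ℓ, ∀ g : G, Commute (φ a) (φ g)) →
      FiniteDimensional F (Submodule.span F (Set.range fun g : G => ((φ g : Dˣ) : D))) := by
  induction ℓ with
  | zero =>
    intro G _ _ φ hc
    exact finiteDimensional_span_of_commute halg φ
      (fun a g => hc a (by rw [derivedSeries_zero]; trivial) g)
  | succ ℓ ih =>
    intro G _ _ φ hc
    set N := derivedSeries G ℓ with hN
    have hNn : N.Normal := derivedSeries_normal G ℓ
    set N' : Subgroup Dˣ := N.map φ with hN'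
    have hclass : ∀ a ∈ N', ∀ b ∈ N', ∀ n ∈ N', ⁅a, b⁆ * n = n * ⁅a, b⁆ := by
      rintro _ ⟨x, hx, rfl⟩ _ ⟨y, hy, rfl⟩ _ ⟨n, hn, rfl⟩
      rw [← map_commutatorElement]
      exact (hc ⁅x, y⁆ (by
        rw [derivedSeries_succ]; exact Subgroup.commutator_mem_commutator hx hy) n).eq
    have hpow : ∀ g : G, ∃ k : ℕ, 0 < k ∧ ∀ n ∈ N', φ g ^ k * n = n * φ g ^ k := by
      intro g
      apply exists_pow_centralizes halg N' (φ g) _ _ hclass
      · rintro _ ⟨n, hn, rfl⟩
        exact ⟨g * n * g⁻¹, hNn.conj_mem n hn g, by simp⟩
      · rintro _ ⟨n, hn, rfl⟩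
        exact ⟨g⁻¹ * n * g, by simpa using hNn.conj_mem n hn g⁻¹, by simp⟩
    let C : Subgroup G := (Subgroup.centralizer (N' : Set Dˣ)).comap φ
    have hCmem : ∀ g : G, g ∈ C ↔ ∀ n ∈ N', n * φ g = φ g * n := by
      intro g
      rw [Subgroup.mem_comap, Subgroup.mem_centralizer_iff]
      rfl
    have hCn : C.Normal := by
      constructor
      intro c hc' g
      rw [hCmem] at hc' ⊢
      rintro _ ⟨n, hn, rfl⟩
      have h1 := hc' (φ (g⁻¹ * n * g))
        ⟨g⁻¹ * n * g, by simpa using hNn.conj_mem n hn g⁻¹, rfl⟩
      simp only [map_mul, map_inv] at h1 ⊢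
      calc φ n * (φ g * φ c * (φ g)⁻¹)
          = φ g * (((φ g)⁻¹ * φ n * φ g) * φ c) * (φ g)⁻¹ := by group
        _ = φ g * (φ c * ((φ g)⁻¹ * φ n * φ g)) * (φ g)⁻¹ := by rw [h1]
        _ = φ g * φ c * (φ g)⁻¹ * φ n := by group
    have hQfin : Finite (G ⧸ C) := by
      apply finite_of_derivedSeries_eq_bot (ℓ + 1) (G ⧸ C)
      · intro q
        obtain ⟨g, rfl⟩ := QuotientGroup.mk_surjective q
        obtain ⟨k, hk, hkc⟩ := hpow g
        rw [isOfFinOrder_iff_pow_eq_one]
        refine ⟨k, hk, ?_⟩
        rw [← QuotientGroup.mk_pow, QuotientGroup.eq_one_iff, hCmem]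
        intro n hn
        rw [map_pow]
        exact (hkc n hn).symm
      · rw [← map_derivedSeries_eq (QuotientGroup.mk'_surjective C) (ℓ + 1),
          Subgroup.map_eq_bot_iff, QuotientGroup.ker_mk']
        intro a ha
        rw [hCmem]
        rintro _ ⟨n, _, rfl⟩
        exact (hc a ha n).eq.symm
    have : C.FiniteIndex := Subgroup.finiteIndex_of_finite_quotient
    have : Group.FG C := Subgroup.fg_of_index_ne_zero C
    have hCfd := ih C (φ.comp C.subtype) (by
      intro a ha c
      have ha' : (a : G) ∈ N := map_derivedSeries_le_derivedSeries C.subtype ℓ ⟨a, ha, rfl⟩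
      exact (hCmem c).mp c.2 (φ a) ⟨a, ha', rfl⟩)
    exact finiteDimensional_of_finiteIndex φ C hCfd

/-- The subalgebra generated by a set of units lies in the span of the subgroup they
generate. -/
theorem adjoin_le_span_closure (T : Set Dˣ) :
    Subalgebra.toSubmodule (Algebra.adjoin F ((fun u : Dˣ => (u : D)) '' T)) ≤
      Submodule.span F (Set.range fun g : Subgroup.closure T =>
        ((((Subgroup.closure T).subtype g : Dˣ)) : D)) := by
  rw [Algebra.adjoin_eq_span]
  apply Submodule.span_mono
  intro x hx
  induction hx using Submonoid.closure_induction with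
  | mem x hx =>
    obtain ⟨t, ht, rfl⟩ := hx
    exact ⟨⟨t, Subgroup.subset_closure ht⟩, rfl⟩
  | one => exact ⟨1, by simp⟩
  | mul x y _ _ hx hy =>
    obtain ⟨a, rfl⟩ := hx
    obtain ⟨b, rfl⟩ := hy
    exact ⟨a * b, by simp⟩

/-- Finitely many units generating a solvable-by-finite group generate a finite-dimensional
subalgebra. -/
theorem finiteDimensional_solvable_by_finite (halg : Algebra.IsAlgebraic F D) (T : Set Dˣ)
    (hT : T.Finite) (H : Subgroup Dˣ) (hH : H ≤ Subgroup.closure T)
    (hsol : Group.IsSolvable H) (hidx : H.relIndex (Subgroup.closure T) ≠ 0) :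
    FiniteDimensional F (Algebra.adjoin F ((fun u : Dˣ => (u : D)) '' T)) := by
  have hfg : Group.FG (Subgroup.closure T) :=
    (Group.fg_iff_subgroup_fg _).mpr ⟨hT.toFinset, by simp⟩
  set H' : Subgroup (Subgroup.closure T) := H.subgroupOf (Subgroup.closure T) with hH'
  have : H'.FiniteIndex := ⟨hidx⟩
  have : Group.FG H' := Subgroup.fg_of_index_ne_zero H'
  have : Finite (Subgroup.closure T ⧸ H') := Subgroup.finite_quotient_of_finiteIndex
  have : Group.IsSolvable H' :=
    Group.isSolvable_of_isSolvable_injective
      (f := (Subgroup.subgroupOfEquivOfLe hH).toMonoidHom)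
      (Subgroup.subgroupOfEquivOfLe hH).injective
  obtain ⟨ℓ, hℓ⟩ := (Group.isSolvable_def H').mp inferInstance
  have h1 := finiteDimensional_of_derived_central (F := F) halg ℓ H'
    ((Subgroup.closure T).subtype.comp H'.subtype) (by
      intro a ha g
      rw [hℓ, Subgroup.mem_bot] at ha
      rw [ha, map_one]
      exact Commute.one_left _)
  have h2 := finiteDimensional_of_finiteIndex (F := F) (Subgroup.closure T).subtype H' h1
  exact Submodule.finiteDimensional_of_le (adjoin_le_span_closure (F := F) T)

end Vale.Agent.Lib.P199
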